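import Crest.Agent.R178.Env

/-!
The finite-dimensional algebra `A`.
-/

set_option autoImplicit false

namespace Crest.Agent.R178

noncomputable section

open FRep

theorem g01 : gen 0 * gen 1 = gen 1 * gen 0 := by
  simpa [cc01, ee01] using gen_rel 0 1 (by decide)
theorem g02 : gen 0 * gen 2 = gen 2 * gen 0 + gen 2 := by
  simpa [cc02, ee02] using gen_rel 0 2 (by decide)
theorem g03 : gen 0 * gen 3 = gen 3 * gen 0 - gen 3 := by
  simpa [cc03, ee03, sub_eq_add_neg] using gen_rel 0 3 (by decide)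
theorem g12 : gen 1 * gen 2 = gen 2 * gen 1 - gen 2 := by
  simpa [cc12, ee12, sub_eq_add_neg] using gen_rel 1 2 (by decide)
theorem g13 : gen 1 * gen 3 = gen 3 * gen 1 + gen 3 := by
  simpa [cc13, ee13] using gen_rel 1 3 (by decide)
theorem g23 : gen 2 * gen 3 = gen 3 * gen 2 + (gen 0 - gen 1) := by
  simpa [cc23, ee23] using gen_rel 2 3 (by decide)

def rhoGen : Fin 4 → Matrix (Fin 2) (Fin 2) U :=
  ![!![gen 0, 0; 0, gen 0 - 1], !![gen 1 - 1, 0; 0, gen 1], !![gen 2, 1; 0, gen 2],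
    !![gen 3, 0; 1, gen 3]]

/-- Tensoring with the standard representation (twisted by `det⁻¹`). -/
def rho : U →ₐ[ℂ] Matrix (Fin 2) (Fin 2) U :=
  liftU rhoGen fun i k hik => by
    ext a b
    fin_cases i <;> fin_cases k <;> simp at hik <;> fin_cases a <;> fin_cases b <;>
      simp [rhoGen, Matrix.mul_apply, Fin.sum_univ_two, cc, ee, mul_sub, sub_mul, g01, g02, g03,
        g12, g13, g23] <;> abel

theorem rho_gen (i : Fin 4) : rho (gen i) = rhoGen i := liftU_gen _ _ i

def dd : Matrix (Fin 2) (Fin 2) U := !![gen 0 + 1, gen 3; gen 2, gen 1 + 1]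

theorem dd_comm (z : U) : dd * rho z = rho z * dd := by
  induction z using U.induction with
  | h0 r => simp
  | h1 i =>
    rw [rho_gen]
    ext a b
    fin_cases i <;> fin_cases a <;> fin_cases b <;>
      simp [rhoGen, dd, Matrix.mul_apply, Fin.sum_univ_two, mul_sub, sub_mul, mul_add, add_mul,
        g01, g02, g03, g12, g13, g23] <;> abel
  | hadd a b ha hb => rw [map_add, mul_add, add_mul, ha, hb]
  | hmul a b ha hb => rw [map_mul, ← mul_assoc, ha, mul_assoc, hb, mul_assoc]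

theorem dd_mem (a b : Fin 2) : dd a b ∈ F 1 := by
  have h1 : (1 : U) ∈ F 1 := one_mem_F (by norm_num)
  fin_cases a <;> fin_cases b <;> simp [dd, gen_mem_F, add_mem, h1]

theorem rhoGen_mem (i : Fin 4) (a b : Fin 2) : rhoGen i a b ∈ F 1 := by
  have h1 : (1 : U) ∈ F 1 := one_mem_F (by norm_num)
  fin_cases i <;> fin_cases a <;> fin_cases b <;> simp [rhoGen, gen_mem_F, sub_mem, h1]

theorem rho_mem {n : ℤ} {z : U} (hz : z ∈ F n) (a b : Fin 2) : rho z a b ∈ F n := by
  refine F_le ((F n).comap (Matrix.entryLinearMap ℂ U a b ∘ₗ rho.toLinearMap))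
    (fun l hl => ?_) hz
  change rho (l.map gen).prod a b ∈ F n
  refine F_mono hl ?_
  clear hl
  induction l generalizing a with
  | nil =>
    simp only [List.map_nil, List.prod_nil, map_one, Matrix.one_apply]
    split_ifs
    · exact one_mem_F (by simp)
    · exact zero_mem _
  | cons i l ih =>
    rw [List.map_cons, List.prod_cons, map_mul, rho_gen, Matrix.mul_apply]
    refine Submodule.sum_mem _ fun c _ => ?_
    convert mul_mem_F (rhoGen_mem i a c) (ih c) using 2
    simp only [List.length_cons]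
    push_cast
    ring

abbrev I := Fin 5
abbrev J := Fin 5 × Fin 2

def rh : Matrix I I U →ₐ[ℂ] Matrix J J U :=
  (Matrix.compAlgEquiv I (Fin 2) U ℂ).toAlgHom.comp (AlgHom.mapMatrix rho)

theorem rh_apply (b : Matrix I I U) (j i : J) : rh b j i = rho (b j.1 i.1) j.2 i.2 := rfl

def DD : Matrix J J U := Matrix.compAlgEquiv I (Fin 2) U ℂ (Matrix.diagonal fun _ => dd)

theorem DD_apply (j i : J) : DD j i = if j.1 = i.1 then dd j.2 i.2 else 0 := by
  change (Matrix.diagonal (fun _ : I => dd) j.1 i.1) j.2 i.2 = _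
  rw [Matrix.diagonal_apply]
  split_ifs <;> rfl

theorem DD_comm (b : Matrix I I U) : rh b * DD = DD * rh b := by
  change Matrix.compAlgEquiv I (Fin 2) U ℂ (b.map rho) * Matrix.compAlgEquiv I (Fin 2) U ℂ _ =
    Matrix.compAlgEquiv I (Fin 2) U ℂ _ * Matrix.compAlgEquiv I (Fin 2) U ℂ (b.map rho)
  rw [← map_mul, ← map_mul]
  congr 1
  ext1 j i
  rw [Matrix.mul_diagonal, Matrix.diagonal_mul, Matrix.map_apply, dd_comm]

theorem DD_comm' {κ : Type} (b : Matrix I I U) (n : Matrix J κ U) :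
    rh b * (DD * n) = DD * (rh b * n) := by
  rw [← Matrix.mul_assoc, DD_comm, Matrix.mul_assoc]

/-- Matrices whose entries respect the weights. -/
def FM {κ ι : Type} (wκ : κ → ℤ) (wι : ι → ℤ) : Submodule ℂ (Matrix κ ι U) where
  carrier := {m | ∀ j i, m j i ∈ F (wκ j - wι i)}
  add_mem' := fun ha hb j i => add_mem (ha j i) (hb j i)
  zero_mem' := fun _ _ => zero_mem _
  smul_mem' := fun c _ h j i => Submodule.smul_mem _ c (h j i)

instance FM_finite {κ ι : Type} [Finite κ] [Finite ι] (wκ : κ → ℤ) (wι : ι → ℤ) :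
    FiniteDimensional ℂ (FM wκ wι) := by
  let L : FM wκ wι →ₗ[ℂ] ((j : κ) → (i : ι) → F (wκ j - wι i)) :=
    { toFun := fun m j i => ⟨m.1 j i, m.2 j i⟩
      map_add' := fun _ _ => rfl
      map_smul' := fun _ _ => rfl }
  refine FiniteDimensional.of_injective L fun a b h => ?_
  ext j i
  exact congrArg Subtype.val (congrFun (congrFun h j) i)

theorem mul_mem_FM {κ ι μ : Type} [Fintype ι] {wκ : κ → ℤ} {wι : ι → ℤ} {wμ : μ → ℤ}
    {a : Matrix κ ι U} {b : Matrix ι μ U} (ha : a ∈ FM wκ wι) (hb : b ∈ FM wι wμ) :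
    a * b ∈ FM wκ wμ := fun j i => by
  rw [Matrix.mul_apply]
  refine Submodule.sum_mem _ fun c _ => ?_
  convert mul_mem_F (ha j c) (hb c i) using 2
  ring

theorem one_mem_FM {ι : Type} [DecidableEq ι] (w : ι → ℤ) : (1 : Matrix ι ι U) ∈ FM w w :=
  fun j i => by
    rw [Matrix.one_apply]
    split_ifs with h
    · exact one_mem_F (by simp [h])
    · exact zero_mem _

def wI (i : I) : ℤ := i.val
def wA (j : J) : ℤ := j.1.val
def wB (j : J) : ℤ := j.1.val + 1

theorem rh_mem_A {b : Matrix I I U} (hb : b ∈ FM wI wI) : rh b ∈ FM wA wA :=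
  fun j i => rho_mem (hb j.1 i.1) _ _

theorem rh_mem_B {b : Matrix I I U} (hb : b ∈ FM wI wI) : rh b ∈ FM wB wB := fun j i => by
  convert rho_mem (hb j.1 i.1) j.2 i.2 using 2
  · simp [wB, wI]
  · rfl

theorem DD_mem : DD ∈ FM wB wA := fun j i => by
  rw [DD_apply]
  split_ifs with h
  · convert dd_mem j.2 i.2 using 2
    simp [wB, wA, h]
  · exact zero_mem _

/-- The algebra. -/
def A : Type := FM wI wI × FM wI wI × FM wI wI × FM wA wI × FM wB wI

namespace A

instance : AddCommGroup A :=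
  inferInstanceAs (AddCommGroup (FM wI wI × FM wI wI × FM wI wI × FM wA wI × FM wB wI))
instance : Module ℂ A :=
  inferInstanceAs (Module ℂ (FM wI wI × FM wI wI × FM wI wI × FM wA wI × FM wB wI))
instance : FiniteDimensional ℂ A :=
  inferInstanceAs (FiniteDimensional ℂ (FM wI wI × FM wI wI × FM wI wI × FM wA wI × FM wB wI))

def ba (a : A) : Matrix I I U := a.1
def bb (a : A) : Matrix I I U := a.2.1
def be (a : A) : Matrix I I U := a.2.2.1
def na (a : A) : Matrix J I U := a.2.2.2.1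
def nb (a : A) : Matrix J I U := a.2.2.2.2

theorem ba_mem (a : A) : a.ba ∈ FM wI wI := a.1.2
theorem bb_mem (a : A) : a.bb ∈ FM wI wI := a.2.1.2
theorem be_mem (a : A) : a.be ∈ FM wI wI := a.2.2.1.2
theorem na_mem (a : A) : a.na ∈ FM wA wI := a.2.2.2.1.2
theorem nb_mem (a : A) : a.nb ∈ FM wB wI := a.2.2.2.2.2

theorem ext {a b : A} (h1 : a.ba = b.ba) (h2 : a.bb = b.bb) (h3 : a.be = b.be)
    (h4 : a.na = b.na) (h5 : a.nb = b.nb) : a = b :=
  Prod.ext (Subtype.ext h1) (Prod.ext (Subtype.ext h2) (Prod.ext (Subtype.ext h3)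
    (Prod.ext (Subtype.ext h4) (Subtype.ext h5))))

@[simp] theorem ba_add (a b : A) : (a + b).ba = a.ba + b.ba := rfl
@[simp] theorem bb_add (a b : A) : (a + b).bb = a.bb + b.bb := rfl
@[simp] theorem be_add (a b : A) : (a + b).be = a.be + b.be := rfl
@[simp] theorem na_add (a b : A) : (a + b).na = a.na + b.na := rfl
@[simp] theorem nb_add (a b : A) : (a + b).nb = a.nb + b.nb := rfl
@[simp] theorem ba_zero : (0 : A).ba = 0 := rfl
@[simp] theorem bb_zero : (0 : A).bb = 0 := rfl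
@[simp] theorem be_zero : (0 : A).be = 0 := rfl
@[simp] theorem na_zero : (0 : A).na = 0 := rfl
@[simp] theorem nb_zero : (0 : A).nb = 0 := rfl
@[simp] theorem ba_smul (c : ℂ) (a : A) : (c • a).ba = c • a.ba := rfl
@[simp] theorem bb_smul (c : ℂ) (a : A) : (c • a).bb = c • a.bb := rfl
@[simp] theorem be_smul (c : ℂ) (a : A) : (c • a).be = c • a.be := rfl
@[simp] theorem na_smul (c : ℂ) (a : A) : (c • a).na = c • a.na := rfl
@[simp] theorem nb_smul (c : ℂ) (a : A) : (c • a).nb = c • a.nb := rfl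

instance : Mul A := ⟨fun a b =>
  (⟨a.ba * b.ba, mul_mem_FM a.ba_mem b.ba_mem⟩,
   ⟨a.bb * b.bb, mul_mem_FM a.bb_mem b.bb_mem⟩,
   ⟨a.be * b.ba + a.bb * b.be,
     add_mem (mul_mem_FM a.be_mem b.ba_mem) (mul_mem_FM a.bb_mem b.be_mem)⟩,
   ⟨rh a.ba * b.na + a.na * b.bb,
     add_mem (mul_mem_FM (rh_mem_A a.ba_mem) b.na_mem) (mul_mem_FM a.na_mem b.bb_mem)⟩,
   ⟨rh a.bb * b.nb + a.nb * b.bb + DD * (rh a.be * b.na),
     add_mem (add_mem (mul_mem_FM (rh_mem_B a.bb_mem) b.nb_mem) (mul_mem_FM a.nb_mem b.bb_mem))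
       (mul_mem_FM DD_mem (mul_mem_FM (rh_mem_A a.be_mem) b.na_mem))⟩)⟩

@[simp] theorem ba_mul (a b : A) : (a * b).ba = a.ba * b.ba := rfl
@[simp] theorem bb_mul (a b : A) : (a * b).bb = a.bb * b.bb := rfl
@[simp] theorem be_mul (a b : A) : (a * b).be = a.be * b.ba + a.bb * b.be := rfl
@[simp] theorem na_mul (a b : A) : (a * b).na = rh a.ba * b.na + a.na * b.bb := rfl
@[simp] theorem nb_mul (a b : A) :
    (a * b).nb = rh a.bb * b.nb + a.nb * b.bb + DD * (rh a.be * b.na) := rfl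

instance : One A := ⟨(⟨1, one_mem_FM _⟩, ⟨1, one_mem_FM _⟩, 0, 0, 0)⟩

@[simp] theorem ba_one : (1 : A).ba = 1 := rfl
@[simp] theorem bb_one : (1 : A).bb = 1 := rfl
@[simp] theorem be_one : (1 : A).be = 0 := rfl
@[simp] theorem na_one : (1 : A).na = 0 := rfl
@[simp] theorem nb_one : (1 : A).nb = 0 := rfl

instance : Ring A :=
  { (inferInstance : AddCommGroup A), (inferInstance : Mul A), (inferInstance : One A) with
    mul_assoc := fun a b c => by
      refine ext ?_ ?_ ?_ ?_ ?_ <;>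
        simp only [ba_mul, bb_mul, be_mul, na_mul, nb_mul, map_mul, map_add, Matrix.mul_add,
          Matrix.add_mul, Matrix.mul_assoc, DD_comm'] <;> abel
    one_mul := fun a => by refine ext ?_ ?_ ?_ ?_ ?_ <;> simp
    mul_one := fun a => by refine ext ?_ ?_ ?_ ?_ ?_ <;> simp
    left_distrib := fun a b c => by
      refine ext ?_ ?_ ?_ ?_ ?_ <;> simp [Matrix.mul_add, Matrix.add_mul] <;> abel
    right_distrib := fun a b c => by
      refine ext ?_ ?_ ?_ ?_ ?_ <;> simp [Matrix.mul_add, Matrix.add_mul] <;> abel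
    zero_mul := fun a => by refine ext ?_ ?_ ?_ ?_ ?_ <;> simp
    mul_zero := fun a => by refine ext ?_ ?_ ?_ ?_ ?_ <;> simp }

instance : Algebra ℂ A :=
  Algebra.ofModule
    (fun r a b => by refine ext ?_ ?_ ?_ ?_ ?_ <;> simp [Matrix.smul_mul, Matrix.mul_smul])
    (fun r a b => by refine ext ?_ ?_ ?_ ?_ ?_ <;> simp [Matrix.smul_mul, Matrix.mul_smul])

end A

end

end Crest.Agent.R178
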