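import Crest.Agent.R178.Rep

/-!
The enveloping algebra of `gl₂` by generators and relations, its filtration, and the
resolution principle (`koszul`).
-/

set_option autoImplicit false

namespace Crest.Agent.R178

noncomputable section

open FRep

inductive URel : FreeAlgebra ℂ (Fin 4) → FreeAlgebra ℂ (Fin 4) → Prop
  | rel (i k : Fin 4) (h : i < k) :
      URel (FreeAlgebra.ι ℂ i * FreeAlgebra.ι ℂ k)
        (FreeAlgebra.ι ℂ k * FreeAlgebra.ι ℂ i + cc i k • FreeAlgebra.ι ℂ k +
          ee i k • (FreeAlgebra.ι ℂ 0 - FreeAlgebra.ι ℂ 1))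

def U : Type := RingQuot URel

instance : Ring U := inferInstanceAs (Ring (RingQuot URel))
instance : Algebra ℂ U := inferInstanceAs (Algebra ℂ (RingQuot URel))

def mkU : FreeAlgebra ℂ (Fin 4) →ₐ[ℂ] U := RingQuot.mkAlgHom ℂ URel

def gen (i : Fin 4) : U := mkU (FreeAlgebra.ι ℂ i)

theorem gen_rel (i k : Fin 4) (h : i < k) :
    gen i * gen k = gen k * gen i + cc i k • gen k + ee i k • (gen 0 - gen 1) := by
  have : mkU _ = mkU _ := RingQuot.mkAlgHom_rel ℂ (URel.rel i k h)
  simpa only [gen, map_mul, map_add, map_smul, map_sub] using this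

def liftU {R : Type} [Ring R] [Algebra ℂ R] (x : Fin 4 → R)
    (h : ∀ i k, i < k → x i * x k = x k * x i + cc i k • x k + ee i k • (x 0 - x 1)) :
    U →ₐ[ℂ] R :=
  RingQuot.liftAlgHom ℂ (s := URel) ⟨FreeAlgebra.lift ℂ x, by
    rintro _ _ ⟨i, k, hik⟩
    simpa only [map_mul, map_add, map_smul, map_sub, FreeAlgebra.lift_ι_apply] using h i k hik⟩

theorem liftU_gen {R : Type} [Ring R] [Algebra ℂ R] (x : Fin 4 → R)
    (h : ∀ i k, i < k → x i * x k = x k * x i + cc i k • x k + ee i k • (x 0 - x 1))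
    (i : Fin 4) : liftU x h (gen i) = x i :=
  (RingQuot.liftAlgHom_mkAlgHom_apply ℂ _ _ _).trans (FreeAlgebra.lift_ι_apply _ _)

@[elab_as_elim]
theorem U.induction {P : U → Prop} (h0 : ∀ r : ℂ, P (r • 1)) (h1 : ∀ i, P (gen i))
    (hadd : ∀ a b, P a → P b → P (a + b)) (hmul : ∀ a b, P a → P b → P (a * b)) (z : U) :
    P z := by
  obtain ⟨w, rfl⟩ : ∃ w, mkU w = z := RingQuot.mkAlgHom_surjective ℂ URel z
  induction w using FreeAlgebra.induction with
  | grade0 r => rw [AlgHom.commutes, Algebra.algebraMap_eq_smul_one]; exact h0 r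
  | grade1 i => exact h1 i
  | mul a b ha hb => rw [map_mul]; exact hmul _ _ ha hb
  | add a b ha hb => rw [map_add]; exact hadd _ _ ha hb

/-- The filtration of `U` by the length of words. -/
def F (n : ℤ) : Submodule ℂ U :=
  Submodule.span ℂ ((fun l : List (Fin 4) => (l.map gen).prod) '' {l | (l.length : ℤ) ≤ n})

theorem F_mono : Monotone F := fun m n h =>
  Submodule.span_mono (Set.image_mono fun l (hl : (l.length : ℤ) ≤ m) => hl.trans h)

instance F_finite (n : ℤ) : FiniteDimensional ℂ (F n) := by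
  refine FiniteDimensional.span_of_finite ℂ (Set.Finite.image _ ?_)
  refine (List.finite_length_le (Fin 4) n.toNat).subset fun l (hl : (l.length : ℤ) ≤ n) => ?_
  change l.length ≤ n.toNat
  omega

theorem one_mem_F {n : ℤ} (h : 0 ≤ n) : (1 : U) ∈ F n :=
  Submodule.subset_span ⟨[], by simpa using h, by simp⟩

theorem F_le {n : ℤ} (H : Submodule ℂ U)
    (h : ∀ l : List (Fin 4), (l.length : ℤ) ≤ n → (l.map gen).prod ∈ H) : F n ≤ H :=
  Submodule.span_le.2 (by rintro _ ⟨l, hl, rfl⟩; exact h l hl)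

theorem gen_mul_mem_F (i : Fin 4) (n : ℤ) (y : U) (hy : y ∈ F n) : gen i * y ∈ F (n + 1) := by
  refine F_le ((F (n + 1)).comap (LinearMap.mulLeft ℂ (gen i))) (fun l hl => ?_) hy
  refine Submodule.subset_span ⟨i :: l, ?_, by simp⟩
  simp only [Set.mem_ofPred_eq, List.length_cons]
  push_cast
  omega

theorem gen_mem_F (i : Fin 4) : gen i ∈ F 1 := by
  simpa using gen_mul_mem_F i 0 1 (one_mem_F le_rfl)

namespace FRep

/-- The action of `U` on a representation of `gl₂`. -/
def act {T : FRep} (h : T.Rel 4) : U →ₐ[ℂ] Module.End ℂ T.Y :=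
  liftU T.x fun i k hik => LinearMap.ext fun t => h i k hik k.isLt t

theorem act_gen {T : FRep} (h : T.Rel 4) (i : Fin 4) : act h (gen i) = T.x i :=
  liftU_gen _ _ i

theorem act_mem {T : FRep} (h : T.Rel 4) {m n : ℤ} {z : U} (hz : z ∈ F m) {y : T.Y}
    (hy : y ∈ T.G n) : act h z y ∈ T.G (m + n) := by
  refine F_le ((T.G (m + n)).comap ((LinearMap.applyₗ y) ∘ₗ (act h).toLinearMap))
    (fun l hl => ?_) hz
  change act h (l.map gen).prod y ∈ T.G (m + n)
  refine T.mem_of_le (m := l.length + n) (by omega) ?_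
  clear hl
  induction l with
  | nil => simpa using hy
  | cons i l ih =>
    rw [List.map_cons, List.prod_cons, map_mul, act_gen, Module.End.mul_apply]
    convert T.x_mem i _ _ ih using 2
    simp only [List.length_cons]
    push_cast
    ring

theorem Hom.act_comm {X Y : FRep} (hX : X.Rel 4) (hY : Y.Rel 4) (φ : Hom 4 X Y) (z : U)
    (t : X.Y) : φ.f (act hX z t) = act hY z (φ.f t) := by
  induction z using U.induction generalizing t with
  | h0 r => simp
  | h1 i => rw [act_gen, act_gen, φ.comm i i.isLt]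
  | hadd a b ha hb => simp [ha, hb]
  | hmul a b ha hb => simp [ha, hb]

/-- The regular representation, generated in degree `m`. -/
abbrev Ureg (m : ℤ) : FRep where
  Y := U
  x := fun i => LinearMap.mulLeft ℂ (gen i)
  G := fun n => F (n - m)
  mono := fun a b h => F_mono (by omega)
  x_mem := fun i n y hy => by
    have := gen_mul_mem_F i _ y hy
    rwa [show n - m + 1 = n + 1 - m by ring] at this

theorem Ureg_rel (m : ℤ) : (Ureg m).Rel 4 := fun i k hik _ (t : U) => by
  change gen i * (gen k * t) = gen k * (gen i * t) + cc i k • (gen k * t) +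
    ee i k • (gen 0 * t - gen 1 * t)
  rw [← mul_assoc, gen_rel i k hik]
  simp only [add_mul, smul_mul_assoc, sub_mul, mul_assoc]

theorem act_Ureg (m : ℤ) (z y : U) : act (Ureg_rel m) z y = z * y := by
  induction z using U.induction generalizing y with
  | h0 r => simp
  | h1 i => rw [act_gen]; rfl
  | hadd a b ha hb => simp [ha, hb, add_mul]
  | hmul a b ha hb => simp [ha, hb, mul_assoc]

end FRep

theorem mul_mem_F {m n : ℤ} {a b : U} (ha : a ∈ F m) (hb : b ∈ F n) : a * b ∈ F (m + n) := by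
  have := act_mem (Ureg_rel 0) ha (y := b) (n := n) (by simpa using hb)
  rw [act_Ureg] at this
  simpa using this

namespace FRep

/-! ### The resolution principle -/

/-- The filtration jumps from `0` to everything in degree `m`. -/
def Triv (m : ℤ) (T : FRep) : Prop := ∀ n y, y ∈ T.G n ↔ (m ≤ n ∨ y = 0)

def trivG (m : ℤ) (V : Type) [AddCommGroup V] [Module ℂ V] (n : ℤ) : Submodule ℂ V :=
  if m ≤ n then ⊤ else ⊥

theorem mem_trivG {m n : ℤ} {V : Type} [AddCommGroup V] [Module ℂ V] {y : V} :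
    y ∈ trivG m V n ↔ (m ≤ n ∨ y = 0) := by
  unfold trivG
  split_ifs with h <;> simp [h]

abbrev triv (m : ℤ) (V : Type) [AddCommGroup V] [Module ℂ V] (x : Fin 4 → Module.End ℂ V) :
    FRep where
  Y := V
  x := x
  G := trivG m V
  mono := fun a b h y hy => by
    rw [mem_trivG] at hy ⊢
    exact hy.imp_left (fun h' => h'.trans h)
  x_mem := fun i n y hy => by
    rw [mem_trivG] at hy ⊢
    rcases hy with hy | rfl
    · left; omega
    · simp

theorem triv_triv (m : ℤ) (V : Type) [AddCommGroup V] [Module ℂ V]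
    (x : Fin 4 → Module.End ℂ V) : Triv m (triv m V x) := fun _ _ => mem_trivG

def Hom.ofTriv {j : ℕ} {m : ℤ} {X Y : FRep} (hX : Triv m X) (hY : Triv m Y)
    (f : X.Y →ₗ[ℂ] Y.Y) (comm : ∀ i : Fin 4, i.val < j → ∀ t, f (X.x i t) = Y.x i (f t)) :
    Hom j X Y :=
  ⟨f, comm, fun n t ht => by
    rw [hX] at ht
    rw [hY]
    rcases ht with ht | rfl
    · exact Or.inl ht
    · simp⟩

theorem SES.ofTriv {j : ℕ} {m : ℤ} {X Y Z : FRep} (hX : Triv m X) (hY : Triv m Y)
    (hZ : Triv m Z) {f : Hom j X Y} {g : Hom j Y Z} (inj : Function.Injective f.f)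
    (comp : ∀ t, g.f (f.f t) = 0) (exact : ∀ t, g.f t = 0 → ∃ s, f.f s = t)
    (surj : Function.Surjective g.f) : SES f g where
  inj := inj
  comp := comp
  exact := fun n t ht h0 => by
    rcases (hY _ _).1 ht with h | rfl
    · obtain ⟨s, hs⟩ := exact t h0
      exact ⟨s, (hX _ _).2 (Or.inl h), hs⟩
    · exact ⟨0, zero_mem _, map_zero _⟩
  surj := fun n t ht => by
    rcases (hZ _ _).1 ht with h | rfl
    · obtain ⟨s, hs⟩ := surj t
      exact ⟨s, (hY _ _).2 (Or.inl h), hs⟩
    · exact ⟨0, zero_mem _, map_zero _⟩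

structure Closed (j : ℕ) (P : FRep → Prop) : Prop where
  cok : ∀ {X Y Z : FRep} (f : Hom j X Y) (g : Hom j Y Z), X.Rel j → Y.Rel j → Z.Rel j →
    SES f g → P X → P Y → P Z
  ext : ∀ {X Y Z : FRep} (f : Hom j X Y) (g : Hom j Y Z), X.Rel j → Y.Rel j → Z.Rel j →
    SES f g → P X → P Z → P Y

theorem Closed.ind {k : Fin 4} {P : FRep → Prop} (h : Closed (k.val + 1) P) :
    Closed k.val (fun T => P (Ind k T)) where
  cok := fun f g hX hY hZ hs => h.cok _ _ hX.ind hY.ind hZ.ind (hs.ind k)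
  ext := fun f g hX hY hZ hs => h.ext _ _ hX.ind hY.ind hZ.ind (hs.ind k)

def Good (j : ℕ) (P : FRep → Prop) (r : ℤ) : Prop :=
  ∀ (T : FRep) (m : ℤ), 0 ≤ m → m ≤ r → T.Rel j → Triv m T → FiniteDimensional ℂ T.Y → P T

theorem Good.step {k : Fin 4} {P : FRep → Prop} {r : ℤ} (h : Closed (k.val + 1) P)
    (hg : Good k.val (fun T => P (Ind k T)) (r + 1)) : Good (k.val + 1) P r := by
  intro T m h0 hr hT ht hf
  have hT' : T.Rel k.val := hT.mono' (Nat.le_succ _)
  refine h.cok _ _ hT'.tw.ind hT'.ind hT (ses_res hT) ?_ ?_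
  · refine hg (tw k T) (m + 1) (by omega) (by omega) hT'.tw (fun n y => ?_) hf
    exact (ht (n - 1) y).trans (or_congr_left (by omega))
  · exact hg T m h0 (by omega) hT' ht hf

theorem rel_zero (T : FRep) : T.Rel 0 := fun _ _ _ h => absurd h (Nat.not_lt_zero _)

theorem Good.base {P : FRep → Prop} {r : ℤ} (h : Closed 0 P)
    (hc : ∀ m, 0 ≤ m → m ≤ r → P (triv m ℂ 0)) : Good 0 P r := by
  intro T m h0 hr _ ht hf
  induction hd : Module.finrank ℂ T.Y generalizing T with
  | zero =>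
    have : Subsingleton T.Y := Module.finrank_zero_iff.1 hd
    refine h.cok (Hom.id 0 (triv m ℂ 0)) (Hom.zero 0 _ T) (rel_zero _) (rel_zero _) (rel_zero _)
      (SES.ofTriv (triv_triv _ _ _) (triv_triv _ _ _) ht (fun _ _ h => h) (fun _ => rfl)
        (fun t _ => ⟨t, rfl⟩) (fun t => ⟨0, Subsingleton.elim _ _⟩)) (hc m h0 hr) (hc m h0 hr)
  | succ d ih =>
    have : Nontrivial T.Y := Module.nontrivial_of_finrank_eq_succ hd
    obtain ⟨v, hv⟩ := exists_ne (0 : T.Y)
    let Q := triv m (T.Y ⧸ Submodule.span ℂ {v}) 0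
    have hQ : P Q := by
      refine ih Q (rel_zero _) (triv_triv _ _ _) (inferInstanceAs
        (FiniteDimensional ℂ (T.Y ⧸ Submodule.span ℂ {v}))) ?_
      have h1 := Submodule.finrank_quotient_add_finrank (Submodule.span ℂ {v})
      rw [finrank_span_singleton hv, hd] at h1
      exact Nat.succ_injective h1
    refine h.ext
      (Hom.ofTriv (triv_triv m ℂ 0) ht (LinearMap.toSpanSingleton ℂ T.Y v) (fun _ h => by omega))
      (Hom.ofTriv ht (triv_triv m _ 0) (Submodule.mkQ (Submodule.span ℂ {v})) (fun _ h => by omega))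
      (rel_zero _) (rel_zero _) (rel_zero _)
      (SES.ofTriv (triv_triv _ _ _) ht (triv_triv _ _ _) ?_ ?_ ?_ ?_) (hc m h0 hr) hQ
    · exact smul_left_injective ℂ hv
    · intro t
      exact (Submodule.Quotient.mk_eq_zero _).2 (Submodule.mem_span_singleton.2 ⟨t, rfl⟩)
    · intro t ht
      exact Submodule.mem_span_singleton.1 ((Submodule.Quotient.mk_eq_zero _).1 ht)
    · exact Submodule.mkQ_surjective _

/-- The fourfold induction of the one-dimensional space. -/
abbrev PBW (m : ℤ) : FRep := Ind 3 (Ind 2 (Ind 1 (Ind 0 (triv m ℂ 0))))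

theorem PBW_rel (m : ℤ) : (PBW m).Rel 4 :=
  Rel.ind (k := 3) (Rel.ind (k := 2) (Rel.ind (k := 1) (Rel.ind (k := 0) (rel_zero _))))

def pbwOne (m : ℤ) : (PBW m).Y :=
  Finsupp.single 0 (Finsupp.single 0 (Finsupp.single 0 (Finsupp.single 0 (1 : ℂ))))

theorem pbwOne_mem (m : ℤ) : pbwOne m ∈ (PBW m).G m :=
  single_mem_indG (single_mem_indG (single_mem_indG (single_mem_indG
    (mem_trivG.2 (Or.inl (by simp))))))

def toPBW (m : ℤ) : Hom 4 (Ureg m) (PBW m) where
  f := (LinearMap.applyₗ (pbwOne m)) ∘ₗ (act (PBW_rel m)).toLinearMap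
  comm := fun i _ (t : U) => by
    change act (PBW_rel m) (gen i * t) (pbwOne m) = (PBW m).x i (act (PBW_rel m) t (pbwOne m))
    rw [map_mul, act_gen, Module.End.mul_apply]
  mem := fun n t ht => by
    have := act_mem (PBW_rel m) ht (pbwOne_mem m)
    rwa [sub_add_cancel] at this

theorem toPBW_apply (m : ℤ) (z : U) : (toPBW m).f z = act (PBW_rel m) z (pbwOne m) := rfl

def ofPBW0 (m : ℤ) : Hom 0 (triv m ℂ 0) (Ureg m) where
  f := LinearMap.toSpanSingleton ℂ U 1
  comm := fun _ h => by omega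
  mem := fun n t ht => by
    rcases mem_trivG.1 ht with h | rfl
    · exact Submodule.smul_mem _ _ (one_mem_F (by omega))
    · simp

def ofPBW (m : ℤ) : Hom 4 (PBW m) (Ureg m) :=
  Hom.lift (k := 3) (Ureg_rel m)
    (Hom.lift (k := 2) ((Ureg_rel m).mono' (by decide))
      (Hom.lift (k := 1) ((Ureg_rel m).mono' (by decide))
        (Hom.lift (k := 0) ((Ureg_rel m).mono' (by decide)) (ofPBW0 m))))

theorem Hom.lift_zero {k : Fin 4} {T Z : FRep} (hZ : Z.Rel (k.val + 1)) (φ : Hom k.val T Z)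
    (t : T.Y) : (φ.lift hZ).f (Finsupp.single 0 t) = φ.f t := by
  rw [Hom.lift_single, pow_zero, Module.End.one_apply]

theorem ofPBW_one (m : ℤ) : (ofPBW m).f (pbwOne m) = 1 := by
  refine (Hom.lift_zero _ _ _).trans <| (Hom.lift_zero _ _ _).trans <|
    (Hom.lift_zero _ _ _).trans <| (Hom.lift_zero _ _ _).trans ?_
  exact one_smul ℂ (1 : U)

theorem ofPBW_toPBW (m : ℤ) (z : U) : (ofPBW m).f ((toPBW m).f z) = z := by
  rw [toPBW_apply, Hom.act_comm (PBW_rel m) (Ureg_rel m), ofPBW_one, act_Ureg, mul_one]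

theorem toPBW_ofPBW (m : ℤ) : (toPBW m).comp (ofPBW m) = Hom.id 4 _ := by
  refine Hom.ind_ext (k := 3) (Hom.ind_ext (k := 2) (Hom.ind_ext (k := 1)
    (Hom.ind_ext (k := 0) (Hom.ext (LinearMap.ext_ring ?_)))))
  change (toPBW m).f ((ofPBW m).f (pbwOne m)) = pbwOne m
  rw [ofPBW_one, toPBW_apply, map_one, Module.End.one_apply]

abbrev zeroRep : FRep := triv 0 PUnit 0

theorem zeroRep_rel (j : ℕ) : zeroRep.Rel j := fun _ _ _ _ _ => rfl

/-- A property of filtered `gl₂`-modules that holds for the free modules generated in degrees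
`0, …, 4` and is closed under cokernels and extensions holds for every finite-dimensional
module with the trivial filtration. -/
theorem koszul {P : FRep → Prop} (h : Closed 4 P) (hU : ∀ m, 0 ≤ m → m ≤ 4 → P (Ureg m))
    (T : FRep) (hT : T.Rel 4) (ht : Triv 0 T) (hf : FiniteDimensional ℂ T.Y) : P T := by
  have hz : P zeroRep :=
    h.cok (Hom.id 4 (Ureg 0)) (Hom.zero 4 _ _) (Ureg_rel 0) (Ureg_rel 0) (zeroRep_rel 4)
      ⟨fun _ _ h => h, fun _ => rfl, fun _ t ht _ => ⟨t, ht, rfl⟩,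
        fun _ _ _ => ⟨0, zero_mem _, rfl⟩⟩ (hU 0 le_rfl (by norm_num)) (hU 0 le_rfl (by norm_num))
  have hP : ∀ m, 0 ≤ m → m ≤ 4 → P (PBW m) := fun m h0 h4 =>
    h.cok (Hom.zero 4 zeroRep (Ureg m)) (toPBW m) (zeroRep_rel 4) (Ureg_rel m) (PBW_rel m)
      ⟨fun _ _ _ => rfl, fun _ => map_zero _,
        fun _ t _ h0 => ⟨0, zero_mem _, by rw [← ofPBW_toPBW m t, h0, map_zero, map_zero]⟩,
        fun n t ht => ⟨(ofPBW m).f t, (ofPBW m).mem _ _ ht,
          congrArg (fun χ : Hom _ _ _ => χ.f t) (toPBW_ofPBW m)⟩⟩ hz (hU m h0 h4)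
  have h3 := Closed.ind (k := 3) h
  have h2 := Closed.ind (k := 2) h3
  have h1 := Closed.ind (k := 1) h2
  have h0 := Closed.ind (k := 0) h1
  have g0 := Good.base (r := 0 + 1 + 1 + 1 + 1) h0 (fun m a b => hP m a (by omega))
  exact Good.step (k := 3) h (Good.step (k := 2) h3 (Good.step (k := 1) h2
    (Good.step (k := 0) h1 g0))) T 0 le_rfl le_rfl hT ht hf

end FRep

end

end Crest.Agent.R178
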