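import Crest.Agent.R178.Step

/-!
The irreducible polynomial representations, and the conclusion.
-/

set_option autoImplicit false

namespace Crest.Agent.R178

noncomputable section

open FRep

/-- Coefficient sequences of binary forms of degree `n - 1`. -/
def Vsub (n : ℕ) : Submodule ℂ (ℤ → ℂ) where
  carrier := {a | ∀ j : ℤ, (j < 0 ∨ (n : ℤ) ≤ j) → a j = 0}
  add_mem' := fun ha hb j hj => by simp [ha j hj, hb j hj]
  zero_mem' := fun _ _ => rfl
  smul_mem' := fun c a ha j hj => by simp [ha j hj]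

instance (n : ℕ) : FiniteDimensional ℂ (Vsub n) := by
  let L : Vsub n →ₗ[ℂ] (Fin n → ℂ) :=
    { toFun := fun a i => a.1 (i.val : ℤ)
      map_add' := fun _ _ => rfl
      map_smul' := fun _ _ => rfl }
  refine FiniteDimensional.of_injective L fun a b h => Subtype.ext (funext fun j => ?_)
  by_cases hj : j < 0 ∨ (n : ℤ) ≤ j
  · rw [a.2 j hj, b.2 j hj]
  · have := congrFun h ⟨j.toNat, by omega⟩
    change a.1 (j.toNat : ℤ) = b.1 (j.toNat : ℤ) at this
    rwa [Int.toNat_of_nonneg (by omega)] at this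

def opV (n m : ℕ) (c : ℤ → ℂ) (k : ℤ)
    (h : ∀ j : ℤ, (j < 0 ∨ (m : ℤ) ≤ j) → c j = 0 ∨ (j + k < 0 ∨ (n : ℤ) ≤ j + k)) :
    Vsub n →ₗ[ℂ] Vsub m where
  toFun a := ⟨fun j => c j * a.1 (j + k), fun j hj => by
    rcases h j hj with h | h
    · simp [h]
    · simp [a.2 _ h]⟩
  map_add' a b := Subtype.ext (funext fun j => by simp [mul_add])
  map_smul' r a := Subtype.ext (funext fun j => by simp [mul_left_comm])

theorem opV_apply (n m : ℕ) (c : ℤ → ℂ) (k : ℤ)
    (h : ∀ j : ℤ, (j < 0 ∨ (m : ℤ) ≤ j) → c j = 0 ∨ (j + k < 0 ∨ (n : ℤ) ≤ j + k))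
    (a : Vsub n) (j : ℤ) : (opV n m c k h a).1 j = c j * a.1 (j + k) := rfl

def vu (n : ℕ) : Module.End ℂ (Vsub n) := opV n n (fun j => j) 0 fun j hj => Or.inr (by omega)
def vv (n : ℕ) : Module.End ℂ (Vsub n) :=
  opV n n (fun j => n - 1 - j) 0 fun j hj => Or.inr (by omega)
def ve (n : ℕ) : Module.End ℂ (Vsub n) :=
  opV n n (fun j => n - j) (-1) fun j hj => by
    by_cases h : j = n
    · left; simp [h]
    · right; omega
def vf (n : ℕ) : Module.End ℂ (Vsub n) :=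
  opV n n (fun j => j + 1) 1 fun j hj => by
    by_cases h : j = -1
    · left; simp [h]
    · right; omega

theorem vu_apply (n : ℕ) (a : Vsub n) (j : ℤ) : (vu n a).1 j = j * a.1 j := by
  simp [vu, opV_apply]
theorem vv_apply (n : ℕ) (a : Vsub n) (j : ℤ) : (vv n a).1 j = (n - 1 - j) * a.1 j := by
  simp [vv, opV_apply]
theorem ve_apply (n : ℕ) (a : Vsub n) (j : ℤ) : (ve n a).1 j = (n - j) * a.1 (j - 1) := by
  simp [ve, opV_apply, sub_eq_add_neg]
theorem vf_apply (n : ℕ) (a : Vsub n) (j : ℤ) : (vf n a).1 j = (j + 1) * a.1 (j + 1) := by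
  simp [vf, opV_apply]

abbrev V (n : ℕ) : FRep := triv 0 (Vsub n) ![vu n, vv n, ve n, vf n]

theorem V_rel (n : ℕ) : (V n).Rel 4 := fun i k hik _ (t : Vsub n) => by
  refine Subtype.ext (funext fun j => ?_)
  fin_cases i <;> fin_cases k <;> simp at hik <;>
    simp [cc, ee, vu_apply, vv_apply, ve_apply, vf_apply] <;> ring

theorem act_V0 (n : ℕ) : act (V_rel n) (gen 0) = vu n := act_gen _ _
theorem act_V1 (n : ℕ) : act (V_rel n) (gen 1) = vv n := act_gen _ _
theorem act_V2 (n : ℕ) : act (V_rel n) (gen 2) = ve n := act_gen _ _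
theorem act_V3 (n : ℕ) : act (V_rel n) (gen 3) = vf n := act_gen _ _

abbrev W (n : ℕ) : FRep := rhoRep (V_rel n)

theorem W_x0 (n : ℕ) (w : Fin 2 → Vsub n) :
    (W n).x 0 w = ![vu n (w 0), vu n (w 1) - w 1] := by
  change mact (V_rel n) (rho (gen 0)) w = _
  funext k
  fin_cases k <;> simp [mact, rho_gen, rhoGen, Fin.sum_univ_two] <;> rw [act_V0]

theorem W_x1 (n : ℕ) (w : Fin 2 → Vsub n) :
    (W n).x 1 w = ![vv n (w 0) - w 0, vv n (w 1)] := by
  change mact (V_rel n) (rho (gen 1)) w = _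
  funext k
  fin_cases k <;> simp [mact, rho_gen, rhoGen, Fin.sum_univ_two] <;> rw [act_V1]

theorem W_x2 (n : ℕ) (w : Fin 2 → Vsub n) :
    (W n).x 2 w = ![ve n (w 0) + w 1, ve n (w 1)] := by
  change mact (V_rel n) (rho (gen 2)) w = _
  funext k
  fin_cases k <;> simp [mact, rho_gen, rhoGen, Fin.sum_univ_two] <;> rw [act_V2]

theorem W_x3 (n : ℕ) (w : Fin 2 → Vsub n) :
    (W n).x 3 w = ![vf n (w 0), w 0 + vf n (w 1)] := by
  change mact (V_rel n) (rho (gen 3)) w = _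
  funext k
  fin_cases k <;> simp [mact, rho_gen, rhoGen, Fin.sum_univ_two] <;> rw [act_V3]

theorem dHom_apply (n : ℕ) (w : Fin 2 → Vsub n) :
    (dHom (V_rel n)).f w = ![vu n (w 0) + w 0 + vf n (w 1), ve n (w 0) + (vv n (w 1) + w 1)] := by
  change mact (V_rel n) dd w = _
  funext k
  fin_cases k <;> simp [mact, dd, Fin.sum_univ_two]
  · rw [act_V0, act_V3]
  · rw [act_V1, act_V2]

def iy (n : ℕ) : Vsub n →ₗ[ℂ] Vsub (n + 1) :=
  opV n (n + 1) (fun _ => 1) 0 fun j hj => Or.inr (by omega)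
def ix (n : ℕ) : Vsub n →ₗ[ℂ] Vsub (n + 1) :=
  opV n (n + 1) (fun _ => -1) (-1) fun j hj => Or.inr (by omega)
def py (n : ℕ) : Vsub (n + 1) →ₗ[ℂ] Vsub n :=
  opV (n + 1) n (fun j => n - j) 0 fun j hj => by
    by_cases h : j = n
    · left; simp [h]
    · right; omega
def px (n : ℕ) : Vsub (n + 1) →ₗ[ℂ] Vsub n :=
  opV (n + 1) n (fun j => j + 1) 1 fun j hj => by
    by_cases h : j = -1
    · left; simp [h]
    · right; omega

theorem iy_apply (n : ℕ) (a : Vsub n) (j : ℤ) : (iy n a).1 j = a.1 j := by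
  simp [iy, opV_apply]
theorem ix_apply (n : ℕ) (a : Vsub n) (j : ℤ) : (ix n a).1 j = -a.1 (j - 1) := by
  simp [ix, opV_apply, sub_eq_add_neg]
theorem py_apply (n : ℕ) (a : Vsub (n + 1)) (j : ℤ) : (py n a).1 j = (n - j) * a.1 j := by
  simp [py, opV_apply]
theorem px_apply (n : ℕ) (a : Vsub (n + 1)) (j : ℤ) : (px n a).1 j = (j + 1) * a.1 (j + 1) := by
  simp [px, opV_apply]

def iL (n : ℕ) : Vsub n →ₗ[ℂ] (Fin 2 → Vsub (n + 1)) := LinearMap.pi ![iy n, ix n]

theorem iL_apply (n : ℕ) (a : Vsub n) : iL n a = ![iy n a, ix n a] := by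
  funext k
  fin_cases k <;> rfl

def pL (n : ℕ) : (Fin 2 → Vsub (n + 1)) →ₗ[ℂ] Vsub n :=
  py n ∘ₗ LinearMap.proj 0 - px n ∘ₗ LinearMap.proj 1

theorem pL_apply (n : ℕ) (w : Fin 2 → Vsub (n + 1)) : pL n w = py n (w 0) - px n (w 1) := rfl

theorem W_ext {n : ℕ} {w w' : Fin 2 → Vsub n} (h0 : ∀ j, (w 0).1 j = (w' 0).1 j)
    (h1 : ∀ j, (w 1).1 j = (w' 1).1 j) : w = w' := by
  funext k
  fin_cases k
  · exact Subtype.ext (funext h0)
  · exact Subtype.ext (funext h1)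

def iHom (n : ℕ) : Hom 4 (V n) (W (n + 1)) :=
  Hom.ofTriv (triv_triv _ _ _) (triv_triv _ _ _) (iL n) fun k _ (t : Vsub n) => by
    fin_cases k
    · refine Eq.trans ?_ (W_x0 (n + 1) _).symm
      refine W_ext (fun j => ?_) (fun j => ?_) <;>
        simp [iL_apply, iy_apply, ix_apply, vu_apply] <;> ring
    · refine Eq.trans ?_ (W_x1 (n + 1) _).symm
      refine W_ext (fun j => ?_) (fun j => ?_) <;>
        simp [iL_apply, iy_apply, ix_apply, vv_apply] <;> ring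
    · refine Eq.trans ?_ (W_x2 (n + 1) _).symm
      refine W_ext (fun j => ?_) (fun j => ?_) <;>
        simp [iL_apply, iy_apply, ix_apply, ve_apply, -mul_eq_mul_right_iff] <;> ring
    · refine Eq.trans ?_ (W_x3 (n + 1) _).symm
      refine W_ext (fun j => ?_) (fun j => ?_) <;>
        simp [iL_apply, iy_apply, ix_apply, vf_apply] <;> ring

theorem pL_comm (n : ℕ) (k : Fin 4) (w : Fin 2 → Vsub (n + 1)) :
    pL n ((W (n + 1)).x k w) = (V n).x k (pL n w) := by
  refine Subtype.ext (funext fun j => ?_)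
  fin_cases k
  · refine Eq.trans (congrArg (fun z => (pL n z).1 j) (W_x0 (n + 1) w)) ?_
    simp [pL_apply, py_apply, px_apply, vu_apply]
    ring
  · refine Eq.trans (congrArg (fun z => (pL n z).1 j) (W_x1 (n + 1) w)) ?_
    simp [pL_apply, py_apply, px_apply, vv_apply]
    ring
  · refine Eq.trans (congrArg (fun z => (pL n z).1 j) (W_x2 (n + 1) w)) ?_
    simp [pL_apply, py_apply, px_apply, ve_apply]
    ring
  · refine Eq.trans (congrArg (fun z => (pL n z).1 j) (W_x3 (n + 1) w)) ?_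
    simp [pL_apply, py_apply, px_apply, vf_apply]
    ring

def pHom (n : ℕ) : Hom 4 (W (n + 1)) (V n) :=
  Hom.ofTriv (triv_triv _ _ _) (triv_triv _ _ _) (((n : ℂ) + 1)⁻¹ • pL n) fun k _ w => by
    rw [LinearMap.smul_apply, LinearMap.smul_apply, map_smul, pL_comm]

theorem pL_iL (n : ℕ) (a : Vsub n) : pL n (iL n a) = ((n : ℂ) + 1) • a := by
  refine Subtype.ext (funext fun j => ?_)
  simp [pL_apply, iL_apply, py_apply, px_apply, iy_apply, ix_apply]
  ring

theorem d_add (n : ℕ) (w : Fin 2 → Vsub (n + 1)) :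
    (dHom (V_rel (n + 1))).f w + iL n (pL n w) = ((n : ℂ) + 1) • w := by
  rw [dHom_apply]
  refine W_ext (fun j => ?_) (fun j => ?_) <;>
    simp [pL_apply, iL_apply, py_apply, px_apply, iy_apply, ix_apply, vu_apply, vv_apply, ve_apply,
      vf_apply] <;> ring

theorem ne_zero' (n : ℕ) : (n : ℂ) + 1 ≠ 0 := Nat.cast_add_one_ne_zero n

theorem p_i (n : ℕ) (a : Vsub n) : (pHom n).f ((iHom n).f a) = a := by
  change ((n : ℂ) + 1)⁻¹ • pL n (iL n a) = a
  rw [pL_iL, inv_smul_smul₀ (ne_zero' n)]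

theorem d_i (n : ℕ) (a : Vsub n) : (dHom (V_rel (n + 1))).f ((iHom n).f a) = 0 := by
  have := d_add n (iL n a)
  rw [pL_iL, map_smul] at this
  exact add_eq_right.1 this

theorem p_d (n : ℕ) (w : Fin 2 → Vsub (n + 1)) :
    (pHom n).f ((dHom (V_rel (n + 1))).f w) = 0 := by
  have := congrArg (pL n) (d_add n w)
  rw [map_add, pL_iL, map_smul] at this
  change ((n : ℂ) + 1)⁻¹ • pL n _ = 0
  rw [add_eq_right.1 this, smul_zero]

theorem d_ker (n : ℕ) (w : Fin 2 → Vsub (n + 1)) (h : (dHom (V_rel (n + 1))).f w = 0) :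
    ∃ s, (iHom n).f s = w := by
  have := d_add n w
  rw [h, zero_add] at this
  refine ⟨((n : ℂ) + 1)⁻¹ • pL n w, ?_⟩
  change iL n _ = w
  rw [map_smul, this, inv_smul_smul₀ (ne_zero' n)]

theorem p_ker (n : ℕ) (w : Fin 2 → Vsub (n + 1)) (h : (pHom n).f w = 0) :
    ∃ s, (dHom (V_rel (n + 1))).f s = w := by
  have h' : pL n w = 0 := by
    change ((n : ℂ) + 1)⁻¹ • pL n w = 0 at h
    exact (smul_eq_zero.1 h).resolve_left (inv_ne_zero (ne_zero' n))
  have := d_add n w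
  rw [h', map_zero, add_zero] at this
  exact ⟨((n : ℂ) + 1)⁻¹ • w, by rw [map_smul, this, inv_smul_smul₀ (ne_zero' n)]⟩

theorem fpd_Z (n : ℕ) : FPD A (ZMod' (V_rel n)) := by
  induction n with
  | zero =>
    have : Subsingleton (ZMod' (V_rel 0)) :=
      ⟨fun s t => CMod.ext (funext fun _ => rfl) (funext fun i => Subtype.ext (funext fun j =>
        ((s.xb i).2 j (by omega)).trans ((t.xb i).2 j (by omega)).symm))⟩
    exact FPD.of_projective
  | succ n ih =>
    refine FPD.cok (mses_KTZ (V_rel (n + 1)) (triv_triv _ _ _)) ?_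
      (fpd_TMod _ (triv_triv _ _ _) inferInstance)
    exact fpd_cone (V_rel n) _ (triv_triv _ _ _) (triv_triv _ _ _) inferInstance inferInstance
      _ (iHom n) (pHom n) (p_i n) (d_i n) (p_d n) (d_ker n) (p_ker n) ih

abbrev M0 : ModuleCat.{0} A := ModuleCat.of A (QMod (rhoRep_rel (V_rel 1)))

theorem epsB_Q {T : FRep} (h : T.Rel 4) (x : QMod h) : epsB • x = 0 :=
  CMod.ext (mact_zero h x.xa) (funext fun _ => rfl)

theorem ev_T (n : ℕ) : EV (TMod (V_rel n)) M0 :=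
  ev_TMod _ (triv_triv _ _ _) inferInstance M0 (epsB_Q _)

theorem enz_Z (n : ℕ) : ENZ (ZMod' (V_rel (n + 1))) M0 (n + 1) := by
  induction n with
  | zero =>
    refine ENZ.step (mses_KTZ (V_rel 1) (triv_triv _ _ _)) (ev_T 1) ?_
    refine ENZ.zero (CMod.map _ _ _ _ _ _ (Hom.id 4 _) (Hom.zero 4 _ _) fun _ => rfl) fun h0 => ?_
    let a : Vsub 1 := ⟨Pi.single 0 1, fun j hj => Pi.single_eq_of_ne (by omega) _⟩
    let t : KMod (V_rel 1) := (⟨fun _ _ => a, mem_res_triv (triv_triv _ _ _) wI_nonneg _⟩, 0)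
    have h1 : a = 0 := congrFun (congrFun (congrArg CMod.xa (LinearMap.congr_fun h0 t)) 0) 0
    have h2 := congrFun (congrArg Subtype.val h1) 0
    simp [a] at h2
  | succ n ih =>
    refine ENZ.step (mses_KTZ (V_rel (n + 2)) (triv_triv _ _ _)) (ev_T _) ?_
    exact enz_cone (V_rel (n + 1)) _ _ (iHom (n + 1)) (pHom (n + 1)) (p_i _) (p_d _) ih

end

end Crest.Agent.R178
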