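import Mathlib

/-!
Projective dimension and `Ext` along short exact sequences of modules, in unbundled form.
-/

set_option autoImplicit false

namespace Crest.Agent.R178

open CategoryTheory Abelian

variable {R : Type} [Ring R]

section

variable {X Y Z : Type} [AddCommGroup X] [AddCommGroup Y] [AddCommGroup Z]
  [Module R X] [Module R Y] [Module R Z]

structure MSES (f : X →ₗ[R] Y) (g : Y →ₗ[R] Z) : Prop where
  inj : Function.Injective f
  comp : ∀ t, g (f t) = 0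
  exact : ∀ t, g t = 0 → ∃ s, f s = t
  surj : Function.Surjective g

abbrev MSES.sc {f : X →ₗ[R] Y} {g : Y →ₗ[R] Z} (h : MSES f g) : ShortComplex (ModuleCat.{0} R) :=
  ModuleCat.shortComplexOfCompEqZero f g (LinearMap.ext h.comp)

theorem MSES.shortExact {f : X →ₗ[R] Y} {g : Y →ₗ[R] Z} (h : MSES f g) : h.sc.ShortExact :=
  ModuleCat.shortComplex_shortExact _
    (fun t => ⟨h.exact t, by rintro ⟨s, rfl⟩; exact h.comp s⟩) h.inj h.surj

variable (R X) in
/-- Finite projective dimension. -/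
def FPD : Prop := ∃ n : ℕ, HasProjectiveDimensionLT (ModuleCat.of R X) n

theorem FPD.cok {f : X →ₗ[R] Y} {g : Y →ₗ[R] Z} (h : MSES f g) (hX : FPD R X) (hY : FPD R Y) :
    FPD R Z := by
  obtain ⟨m, hm⟩ := hX
  obtain ⟨n, hn⟩ := hY
  exact ⟨m + n + 1, h.shortExact.hasProjectiveDimensionLT_X₃ (m + n)
    (hasProjectiveDimensionLT_of_ge (ModuleCat.of R X) m _ (by omega))
    (hasProjectiveDimensionLT_of_ge (ModuleCat.of R Y) n _ (by omega))⟩

theorem FPD.ext {f : X →ₗ[R] Y} {g : Y →ₗ[R] Z} (h : MSES f g) (hX : FPD R X) (hZ : FPD R Z) :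
    FPD R Y := by
  obtain ⟨m, hm⟩ := hX
  obtain ⟨n, hn⟩ := hZ
  exact ⟨m + n, h.shortExact.hasProjectiveDimensionLT_X₂ (m + n)
    (hasProjectiveDimensionLT_of_ge (ModuleCat.of R X) m _ (by omega))
    (hasProjectiveDimensionLT_of_ge (ModuleCat.of R Z) n _ (by omega))⟩

theorem FPD.of_projective [Module.Projective R X] : FPD R X := ⟨1, inferInstance⟩

variable (X) in
/-- All `Ext` groups into `M` vanish. -/
def EV (M : ModuleCat.{0} R) : Prop := ∀ (j : ℕ) (e : Ext.{0} (ModuleCat.of R X) M j), e = 0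

variable (X) in
/-- The `j`-th `Ext` group into `M` does not vanish. -/
def ENZ (M : ModuleCat.{0} R) (j : ℕ) : Prop := ∃ e : Ext.{0} (ModuleCat.of R X) M j, e ≠ 0

variable {M : ModuleCat.{0} R}

theorem EV.cok {f : X →ₗ[R] Y} {g : Y →ₗ[R] Z} (h : MSES f g) (hX : EV X M) (hY : EV Y M) :
    EV Z M := by
  rintro (_ | j) e
  · have := h.shortExact.epi_g
    refine Ext.precomp_mk₀_injective_of_epi M h.sc.g ?_
    rw [map_zero]
    exact hY _ _
  · obtain ⟨x, rfl⟩ := Ext.contravariant_sequence_exact₃ h.shortExact M e (hY _ _) (add_comm _ _)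
    rw [hX _ x, Ext.comp_zero]

theorem EV.ext {f : X →ₗ[R] Y} {g : Y →ₗ[R] Z} (h : MSES f g) (hX : EV X M) (hZ : EV Z M) :
    EV Y M := by
  intro j e
  obtain ⟨x, rfl⟩ := Ext.contravariant_sequence_exact₂ h.shortExact M e (hX _ _)
  rw [hZ _ x, Ext.comp_zero]

theorem EV.of_projective [Module.Projective R X] (h : ∀ φ : X →ₗ[R] M, φ = 0) : EV X M := by
  rintro (_ | j) e
  · rw [← Ext.mk₀_homEquiv₀_apply e, Ext.mk₀_eq_zero_iff]
    exact ModuleCat.hom_ext (h _)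
  · exact Ext.eq_zero_of_projective e

theorem ENZ.step {f : X →ₗ[R] Y} {g : Y →ₗ[R] Z} (h : MSES f g) (hY : EV Y M) {j : ℕ}
    (hX : ENZ X M j) : ENZ Z M (j + 1) := by
  obtain ⟨e, he⟩ := hX
  refine ⟨h.shortExact.extClass.comp e (add_comm _ _), fun h0 => he ?_⟩
  obtain ⟨x, rfl⟩ := Ext.contravariant_sequence_exact₁ h.shortExact M e (add_comm _ _) h0
  rw [hY _ x, Ext.comp_zero]

theorem ENZ.retract (i : X →ₗ[R] Y) (p : Y →ₗ[R] X) (h : ∀ t, p (i t) = t) {j : ℕ}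
    (hX : ENZ X M j) : ENZ Y M j := by
  obtain ⟨e, he⟩ := hX
  refine ⟨(Ext.mk₀ (ModuleCat.ofHom p)).comp e (zero_add j), fun h0 => he ?_⟩
  have h1 : ModuleCat.ofHom i ≫ ModuleCat.ofHom p = 𝟙 _ := ModuleCat.hom_ext (LinearMap.ext h)
  rw [← e.mk₀_id_comp, ← h1, ← Ext.mk₀_comp_mk₀_assoc, h0, Ext.comp_zero]

theorem ENZ.zero (φ : X →ₗ[R] M) (h : φ ≠ 0) : ENZ X M 0 :=
  ⟨Ext.mk₀ (ModuleCat.ofHom φ), fun h0 => h (by
    rw [Ext.mk₀_eq_zero_iff] at h0
    exact congrArg ModuleCat.Hom.hom h0)⟩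

theorem ENZ.not_lt {j k : ℕ} (hX : ENZ X M j) (hk : k ≤ j) :
    ¬ HasProjectiveDimensionLT (ModuleCat.of R X) k := fun _ => by
  obtain ⟨e, he⟩ := hX
  exact he (e.eq_zero_of_hasProjectiveDimensionLT k hk)

end

end Crest.Agent.R178
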