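import Crest.Agent.R178.Alg
import Crest.Agent.R178.Homol

/-!
The `A`-modules attached to filtered representations of `gl₂`.
-/

set_option autoImplicit false

namespace Crest.Agent.R178

noncomputable section

open FRep

section mact

variable {T : FRep} (h : T.Rel 4) {κ ι μ : Type} [Fintype ι]

/-- A matrix over `U` acts on vectors with entries in a representation. -/
def mact (m : Matrix κ ι U) (y : ι → T.Y) : κ → T.Y := fun j => ∑ i, act h (m j i) (y i)

theorem mact_mul [Fintype μ] (a : Matrix κ ι U) (b : Matrix ι μ U) (y : μ → T.Y) :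
    mact h (a * b) y = mact h a (mact h b y) := by
  funext j
  simp only [mact, Matrix.mul_apply, map_sum, map_mul, LinearMap.sum_apply, Module.End.mul_apply]
  exact Finset.sum_comm

theorem mact_add (a b : Matrix κ ι U) (y : ι → T.Y) :
    mact h (a + b) y = mact h a y + mact h b y := by
  funext j
  simp [mact, Finset.sum_add_distrib]

theorem mact_smul (c : ℂ) (a : Matrix κ ι U) (y : ι → T.Y) :
    mact h (c • a) y = c • mact h a y := by
  funext j
  simp [mact, Finset.smul_sum]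

theorem mact_zero (y : ι → T.Y) : mact h (0 : Matrix κ ι U) y = 0 := by
  funext j
  simp [mact]

theorem mact_one [DecidableEq ι] (y : ι → T.Y) : mact h (1 : Matrix ι ι U) y = y := by
  funext j
  simp only [mact]
  rw [Finset.sum_eq_single j (fun i _ hi => by simp [Matrix.one_apply_ne hi.symm]) (by simp)]
  simp

theorem mact_add' (a : Matrix κ ι U) (y z : ι → T.Y) :
    mact h a (y + z) = mact h a y + mact h a z := by
  funext j
  simp [mact, Finset.sum_add_distrib]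

theorem mact_smul' (c : ℂ) (a : Matrix κ ι U) (y : ι → T.Y) :
    mact h a (c • y) = c • mact h a y := by
  funext j
  simp [mact, Finset.smul_sum]

theorem mact_zero' (a : Matrix κ ι U) : mact h a (0 : ι → T.Y) = 0 := by
  funext j
  simp [mact]

theorem mact_nat {X Y : FRep} (hX : X.Rel 4) (hY : Y.Rel 4) (φ : Hom 4 X Y) (a : Matrix κ ι U)
    (y : ι → X.Y) : φ.f ∘ mact hX a y = mact hY a (φ.f ∘ y) := by
  funext j
  simp [mact, φ.act_comm hX hY]

theorem mact_DD_comm (b : Matrix I I U) (y : J → T.Y) :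
    mact h (rh b) (mact h DD y) = mact h DD (mact h (rh b) y) := by
  rw [← mact_mul, DD_comm, mact_mul]

end mact

/-- Vectors whose entries respect the weights. -/
def res {ι : Type} (w : ι → ℤ) (T : FRep) : Submodule ℂ (ι → T.Y) where
  carrier := {y | ∀ i, y i ∈ T.G (w i)}
  add_mem' := fun ha hb i => add_mem (ha i) (hb i)
  zero_mem' := fun _ => zero_mem _
  smul_mem' := fun c _ h i => Submodule.smul_mem _ c (h i)

theorem mact_mem {T : FRep} (h : T.Rel 4) {κ ι : Type} [Fintype ι] {wκ : κ → ℤ} {wι : ι → ℤ}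
    {m : Matrix κ ι U} (hm : m ∈ FM wκ wι) {y : ι → T.Y} (hy : y ∈ res wι T) :
    mact h m y ∈ res wκ T := fun j => by
  refine Submodule.sum_mem _ fun i _ => ?_
  have := act_mem h (hm j i) (hy i)
  rwa [sub_add_cancel] at this

theorem comp_mem_res {X Y : FRep} (φ : Hom 4 X Y) {ι : Type} {w : ι → ℤ} {y : ι → X.Y}
    (hy : y ∈ res w X) : φ.f ∘ y ∈ res w Y := fun i => φ.mem _ _ (hy i)

theorem comp_add' {X Y : FRep} (φ : Hom 4 X Y) {ι : Type} (y z : ι → X.Y) :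
    φ.f ∘ (y + z) = φ.f ∘ y + φ.f ∘ z := funext fun _ => map_add _ _ _

section exact

variable {X Y Z : FRep} {f : Hom 4 X Y} {g : Hom 4 Y Z} (hs : SES f g) {ι : Type}
include hs

theorem res_inj {y z : ι → X.Y} (h : f.f ∘ y = f.f ∘ z) : y = z :=
  funext fun i => hs.inj (congrFun h i)

theorem res_comp (y : ι → X.Y) : g.f ∘ f.f ∘ y = 0 := funext fun i => hs.comp (y i)

theorem res_exact {w : ι → ℤ} {y : ι → Y.Y} (hy : y ∈ res w Y) (h : g.f ∘ y = 0) :
    ∃ x ∈ res w X, f.f ∘ x = y := by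
  choose s hs1 hs2 using fun i => hs.exact _ _ (hy i) (congrFun h i)
  exact ⟨s, hs1, funext hs2⟩

theorem res_surj {w : ι → ℤ} {z : ι → Z.Y} (hz : z ∈ res w Z) :
    ∃ y ∈ res w Y, g.f ∘ y = z := by
  choose s hs1 hs2 using fun i => hs.surj _ _ (hz i)
  exact ⟨s, hs1, funext hs2⟩

end exact

/-! ### The modules `TMod` -/

def TMod {T : FRep} (_ : T.Rel 4) : Type := res wI T × res wB T × res wA T

namespace TMod

variable {T : FRep} {h : T.Rel 4}

instance : AddCommGroup (TMod h) := inferInstanceAs (AddCommGroup (res wI T × res wB T × res wA T))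

def y (t : TMod h) : I → T.Y := t.1
def wb (t : TMod h) : J → T.Y := t.2.1
def wa (t : TMod h) : J → T.Y := t.2.2

theorem y_mem (t : TMod h) : t.y ∈ res wI T := t.1.2
theorem wb_mem (t : TMod h) : t.wb ∈ res wB T := t.2.1.2
theorem wa_mem (t : TMod h) : t.wa ∈ res wA T := t.2.2.2

theorem ext {s t : TMod h} (h1 : s.y = t.y) (h2 : s.wb = t.wb) (h3 : s.wa = t.wa) : s = t :=
  Prod.ext (Subtype.ext h1) (Prod.ext (Subtype.ext h2) (Subtype.ext h3))

@[simp] theorem y_add (s t : TMod h) : (s + t).y = s.y + t.y := rfl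
@[simp] theorem wb_add (s t : TMod h) : (s + t).wb = s.wb + t.wb := rfl
@[simp] theorem wa_add (s t : TMod h) : (s + t).wa = s.wa + t.wa := rfl

instance : SMul A (TMod h) := ⟨fun a t =>
  (⟨mact h a.bb t.y, mact_mem h a.bb_mem t.y_mem⟩,
   ⟨mact h (rh a.bb) t.wb + mact h a.nb t.y + mact h DD (mact h (rh a.be) t.wa),
     add_mem (add_mem (mact_mem h (rh_mem_B a.bb_mem) t.wb_mem) (mact_mem h a.nb_mem t.y_mem))
       (mact_mem h DD_mem (mact_mem h (rh_mem_A a.be_mem) t.wa_mem))⟩,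
   ⟨mact h (rh a.ba) t.wa + mact h a.na t.y,
     add_mem (mact_mem h (rh_mem_A a.ba_mem) t.wa_mem) (mact_mem h a.na_mem t.y_mem)⟩)⟩

@[simp] theorem y_smul (a : A) (t : TMod h) : (a • t).y = mact h a.bb t.y := rfl
@[simp] theorem wb_smul (a : A) (t : TMod h) :
    (a • t).wb = mact h (rh a.bb) t.wb + mact h a.nb t.y + mact h DD (mact h (rh a.be) t.wa) := rfl
@[simp] theorem wa_smul (a : A) (t : TMod h) :
    (a • t).wa = mact h (rh a.ba) t.wa + mact h a.na t.y := rfl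

instance : Module A (TMod h) :=
  Module.ofMinimalAxioms
    (fun a s t => by refine ext ?_ ?_ ?_ <;> simp [mact_add'] <;> abel)
    (fun a b t => by refine ext ?_ ?_ ?_ <;> simp [mact_add, mact_add'] <;> abel)
    (fun a b t => by
      refine ext ?_ ?_ ?_ <;> simp [mact_add, mact_add', mact_mul, mact_DD_comm] <;> abel)
    (fun t => by refine ext ?_ ?_ ?_ <;> simp [mact_one, mact_zero, mact_zero'])

def map {X Y : FRep} (hX : X.Rel 4) (hY : Y.Rel 4) (φ : Hom 4 X Y) : TMod hX →ₗ[A] TMod hY where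
  toFun t := (⟨φ.f ∘ t.y, comp_mem_res φ t.y_mem⟩, ⟨φ.f ∘ t.wb, comp_mem_res φ t.wb_mem⟩,
    ⟨φ.f ∘ t.wa, comp_mem_res φ t.wa_mem⟩)
  map_add' s t := ext (comp_add' φ _ _) (comp_add' φ _ _) (comp_add' φ _ _)
  map_smul' a t := by
    refine ext ?_ ?_ ?_
    · exact mact_nat hX hY φ a.bb t.y
    · change φ.f ∘ (a • t).wb = mact hY (rh a.bb) (φ.f ∘ t.wb) + mact hY a.nb (φ.f ∘ t.y) +
        mact hY DD (mact hY (rh a.be) (φ.f ∘ t.wa))
      rw [wb_smul, comp_add', comp_add', mact_nat hX hY, mact_nat hX hY, mact_nat hX hY,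
        mact_nat hX hY]
    · change φ.f ∘ (a • t).wa = mact hY (rh a.ba) (φ.f ∘ t.wa) + mact hY a.na (φ.f ∘ t.y)
      rw [wa_smul, comp_add', mact_nat hX hY, mact_nat hX hY]

theorem mses {X Y Z : FRep} (hX : X.Rel 4) (hY : Y.Rel 4) (hZ : Z.Rel 4) {f : Hom 4 X Y}
    {g : Hom 4 Y Z} (hs : SES f g) : MSES (map hX hY f) (map hY hZ g) where
  inj := fun _ _ h => ext (res_inj hs (congrArg y h)) (res_inj hs (congrArg wb h))
    (res_inj hs (congrArg wa h))
  comp := fun _ => ext (res_comp hs _) (res_comp hs _) (res_comp hs _)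
  exact := fun t h => by
    obtain ⟨a, ha, ha'⟩ := res_exact hs t.y_mem (congrArg y h)
    obtain ⟨b, hb, hb'⟩ := res_exact hs t.wb_mem (congrArg wb h)
    obtain ⟨c, hc, hc'⟩ := res_exact hs t.wa_mem (congrArg wa h)
    exact ⟨(⟨a, ha⟩, ⟨b, hb⟩, ⟨c, hc⟩), ext ha' hb' hc'⟩
  surj := fun t => by
    obtain ⟨a, ha, ha'⟩ := res_surj hs t.y_mem
    obtain ⟨b, hb, hb'⟩ := res_surj hs t.wb_mem
    obtain ⟨c, hc, hc'⟩ := res_surj hs t.wa_mem
    exact ⟨(⟨a, ha⟩, ⟨b, hb⟩, ⟨c, hc⟩), ext ha' hb' hc'⟩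

end TMod

/-! ### The modules `CMod` -/

def CMod {X Y : FRep} (_ : X.Rel 4) (_ : Y.Rel 4) (_ : Hom 4 X Y) : Type := res wI X × res wI Y

namespace CMod

section

variable {X Y : FRep} {hX : X.Rel 4} {hY : Y.Rel 4} {δ : Hom 4 X Y}

instance : AddCommGroup (CMod hX hY δ) := inferInstanceAs (AddCommGroup (res wI X × res wI Y))
instance : Module ℂ (CMod hX hY δ) := inferInstanceAs (Module ℂ (res wI X × res wI Y))

def xa (t : CMod hX hY δ) : I → X.Y := t.1
def xb (t : CMod hX hY δ) : I → Y.Y := t.2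

theorem xa_mem (t : CMod hX hY δ) : t.xa ∈ res wI X := t.1.2
theorem xb_mem (t : CMod hX hY δ) : t.xb ∈ res wI Y := t.2.2

theorem ext {s t : CMod hX hY δ} (h1 : s.xa = t.xa) (h2 : s.xb = t.xb) : s = t :=
  Prod.ext (Subtype.ext h1) (Subtype.ext h2)

@[simp] theorem xa_add (s t : CMod hX hY δ) : (s + t).xa = s.xa + t.xa := rfl
@[simp] theorem xb_add (s t : CMod hX hY δ) : (s + t).xb = s.xb + t.xb := rfl
@[simp] theorem xa_csmul (c : ℂ) (t : CMod hX hY δ) : (c • t).xa = c • t.xa := rfl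
@[simp] theorem xb_csmul (c : ℂ) (t : CMod hX hY δ) : (c • t).xb = c • t.xb := rfl

instance : SMul A (CMod hX hY δ) := ⟨fun a t =>
  (⟨mact hX a.ba t.xa, mact_mem hX a.ba_mem t.xa_mem⟩,
   ⟨mact hY a.be (δ.f ∘ t.xa) + mact hY a.bb t.xb,
     add_mem (mact_mem hY a.be_mem (comp_mem_res δ t.xa_mem)) (mact_mem hY a.bb_mem t.xb_mem)⟩)⟩

@[simp] theorem xa_smul (a : A) (t : CMod hX hY δ) : (a • t).xa = mact hX a.ba t.xa := rfl
@[simp] theorem xb_smul (a : A) (t : CMod hX hY δ) :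
    (a • t).xb = mact hY a.be (δ.f ∘ t.xa) + mact hY a.bb t.xb := rfl

instance : Module A (CMod hX hY δ) :=
  Module.ofMinimalAxioms
    (fun a s t => by refine ext ?_ ?_ <;> simp [mact_add', comp_add'] <;> abel)
    (fun a b t => by refine ext ?_ ?_ <;> simp [mact_add, mact_add'] <;> abel)
    (fun a b t => by
      refine ext ?_ ?_ <;> simp [mact_add, mact_add', mact_mul, mact_nat hX hY] <;> abel)
    (fun t => by refine ext ?_ ?_ <;> simp [mact_one, mact_zero, mact_zero'])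

instance : IsScalarTower ℂ A (CMod hX hY δ) :=
  ⟨fun c a t => by refine ext ?_ ?_ <;> simp [mact_smul]⟩

theorem finite [FiniteDimensional ℂ X.Y] [FiniteDimensional ℂ Y.Y] :
    Module.Finite A (CMod hX hY δ) :=
  have : FiniteDimensional ℂ (CMod hX hY δ) :=
    inferInstanceAs (FiniteDimensional ℂ (res wI X × res wI Y))
  Module.Finite.of_restrictScalars_finite ℂ A _

end

variable {X Y X' Y' X'' Y'' : FRep}

def map (hX : X.Rel 4) (hY : Y.Rel 4) (δ : Hom 4 X Y) (hX' : X'.Rel 4) (hY' : Y'.Rel 4)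
    (δ' : Hom 4 X' Y') (φ : Hom 4 X X') (ψ : Hom 4 Y Y')
    (sq : ∀ t, ψ.f (δ.f t) = δ'.f (φ.f t)) : CMod hX hY δ →ₗ[A] CMod hX' hY' δ' where
  toFun t := (⟨φ.f ∘ t.xa, comp_mem_res φ t.xa_mem⟩, ⟨ψ.f ∘ t.xb, comp_mem_res ψ t.xb_mem⟩)
  map_add' s t := ext (comp_add' φ _ _) (comp_add' ψ _ _)
  map_smul' a t := by
    refine ext ?_ ?_
    · exact mact_nat hX hX' φ a.ba t.xa
    · change ψ.f ∘ (a • t).xb = mact hY' a.be (δ'.f ∘ φ.f ∘ t.xa) + mact hY' a.bb (ψ.f ∘ t.xb)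
      rw [xb_smul, comp_add', mact_nat hY hY', mact_nat hY hY']
      have : ψ.f ∘ δ.f ∘ t.xa = δ'.f ∘ φ.f ∘ t.xa := funext fun i => sq _
      rw [this]

theorem mses {hX : X.Rel 4} {hY : Y.Rel 4} {δ : Hom 4 X Y} {hX' : X'.Rel 4} {hY' : Y'.Rel 4}
    {δ' : Hom 4 X' Y'} {hX'' : X''.Rel 4} {hY'' : Y''.Rel 4} {δ'' : Hom 4 X'' Y''}
    {φ : Hom 4 X X'} {ψ : Hom 4 Y Y'} {φ' : Hom 4 X' X''} {ψ' : Hom 4 Y' Y''}
    (sq : ∀ t, ψ.f (δ.f t) = δ'.f (φ.f t)) (sq' : ∀ t, ψ'.f (δ'.f t) = δ''.f (φ'.f t))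
    (ha : SES φ φ') (hb : SES ψ ψ') :
    MSES (map hX hY δ hX' hY' δ' φ ψ sq) (map hX' hY' δ' hX'' hY'' δ'' φ' ψ' sq') where
  inj := fun _ _ h => ext (res_inj ha (congrArg xa h)) (res_inj hb (congrArg xb h))
  comp := fun _ => ext (res_comp ha _) (res_comp hb _)
  exact := fun t h => by
    obtain ⟨a, ha1, ha'⟩ := res_exact ha t.xa_mem (congrArg xa h)
    obtain ⟨b, hb1, hb'⟩ := res_exact hb t.xb_mem (congrArg xb h)
    exact ⟨(⟨a, ha1⟩, ⟨b, hb1⟩), ext ha' hb'⟩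
  surj := fun t => by
    obtain ⟨a, ha1, ha'⟩ := res_surj ha t.xa_mem
    obtain ⟨b, hb1, hb'⟩ := res_surj hb t.xb_mem
    exact ⟨(⟨a, ha1⟩, ⟨b, hb1⟩), ext ha' hb'⟩

end CMod

end

end Crest.Agent.R178
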