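import Crest.Agent.R178.Mod

/-!
The modules attached to the free representations are projective; consequences of `koszul`.
-/

set_option autoImplicit false

namespace Crest.Agent.R178

noncomputable section

open FRep

/-- The matrix with column `m` equal to `y` and all other columns zero. -/
def colM {κ : Type} (m : I) (y : κ → U) : Matrix κ I U := fun j i => if i = m then y j else 0

theorem colM_add {κ : Type} (m : I) (y z : κ → U) : colM m (y + z) = colM m y + colM m z := by
  ext j i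
  simp only [colM, Matrix.add_apply, Pi.add_apply]
  split_ifs <;> simp

theorem mact_Ureg {κ ι : Type} [Fintype ι] (k : ℤ) (a : Matrix κ ι U) (y : ι → U) (j : κ) :
    mact (Ureg_rel k) a y j = ∑ i, a j i * y i :=
  Finset.sum_congr rfl fun i _ => act_Ureg k _ _

theorem mul_colM {κ ι : Type} [Fintype ι] (k : ℤ) (m : I) (a : Matrix κ ι U) (y : ι → U) :
    a * colM m y = colM m (mact (Ureg_rel k) a y) := by
  ext j i
  simp only [colM, Matrix.mul_apply, mact_Ureg]
  split_ifs <;> simp

theorem colM_mem {κ : Type} (m : I) {w : κ → ℤ} {y : κ → U} (hy : y ∈ res w (Ureg (wI m))) :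
    colM m y ∈ FM w wI := fun j i => by
  simp only [colM]
  split_ifs with h
  · subst h; exact hy j
  · exact zero_mem _

/-- The `m`-th unit vector. -/
def eU (m : I) : I → U := Pi.single m 1

theorem eU_mem (m : I) : eU m ∈ res wI (Ureg (wI m)) := fun i => by
  by_cases h : i = m
  · subst h
    simpa [eU] using one_mem_F le_rfl
  · simp [eU, h]

theorem mact_colM {κ : Type} (k : ℤ) (m : I) (y : κ → U) :
    mact (Ureg_rel k) (colM m y) (eU m) = y := by
  funext j
  rw [mact_Ureg, Finset.sum_eq_single m (fun i _ hi => by simp [colM, hi]) (by simp)]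
  simp [colM, eU]

/-! ### Projectivity -/

def tGen (m : I) : TMod (Ureg_rel (wI m)) := (⟨eU m, eU_mem m⟩, 0, 0)

def tSec (m : I) : TMod (Ureg_rel (wI m)) →ₗ[A] A where
  toFun t := (0, ⟨colM m t.y, colM_mem m t.y_mem⟩, 0, ⟨colM m t.wa, colM_mem m t.wa_mem⟩,
    ⟨colM m t.wb, colM_mem m t.wb_mem⟩)
  map_add' s t := A.ext (add_zero _).symm (colM_add _ _ _) (add_zero _).symm (colM_add _ _ _)
    (colM_add _ _ _)
  map_smul' a t := by
    refine A.ext ?_ ?_ ?_ ?_ ?_
    · exact (mul_zero a.ba).symm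
    · exact (mul_colM (wI m) m a.bb t.y).symm
    · change (0 : Matrix I I U) = a.be * 0 + a.bb * 0
      simp
    · change colM m (a • t).wa = rh a.ba * colM m t.wa + a.na * colM m t.y
      rw [TMod.wa_smul, colM_add, mul_colM (wI m), mul_colM (wI m)]
    · change colM m (a • t).wb = rh a.bb * colM m t.wb + a.nb * colM m t.y +
        DD * (rh a.be * colM m t.wa)
      rw [TMod.wb_smul, colM_add, colM_add, mul_colM (wI m), mul_colM (wI m), mul_colM (wI m),
        mul_colM (wI m)]

theorem tSec_smul (m : I) (t : TMod (Ureg_rel (wI m))) : tSec m t • tGen m = t := by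
  refine TMod.ext ?_ ?_ ?_
  · exact mact_colM _ m t.y
  · change mact (Ureg_rel (wI m)) (rh (colM m t.y)) 0 + mact (Ureg_rel (wI m)) (colM m t.wb) (eU m) +
      mact (Ureg_rel (wI m)) DD (mact (Ureg_rel (wI m)) (rh 0) 0) = _
    rw [mact_zero', mact_zero', mact_zero', mact_colM, zero_add, add_zero]
  · change mact (Ureg_rel (wI m)) (rh 0) 0 + mact (Ureg_rel (wI m)) (colM m t.wa) (eU m) = _
    rw [mact_zero', mact_colM, zero_add]

instance (m : I) : Module.Projective A (TMod (Ureg_rel (wI m))) :=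
  Module.Projective.of_split (tSec m) (LinearMap.toSpanSingleton A _ (tGen m))
    (LinearMap.ext (tSec_smul m))

/-- The cone on the identity. -/
abbrev EMod {T : FRep} (h : T.Rel 4) : Type := CMod h h (Hom.id 4 T)

def eGen (m : I) : EMod (Ureg_rel (wI m)) := (⟨eU m, eU_mem m⟩, 0)

def eSec (m : I) : EMod (Ureg_rel (wI m)) →ₗ[A] A where
  toFun t := (⟨colM m t.xa, colM_mem m t.xa_mem⟩, 0, ⟨colM m t.xb, colM_mem m t.xb_mem⟩, 0, 0)
  map_add' s t := A.ext (colM_add _ _ _) (add_zero _).symm (colM_add _ _ _) (add_zero _).symm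
    (add_zero _).symm
  map_smul' a t := by
    refine A.ext ?_ ?_ ?_ ?_ ?_
    · exact (mul_colM (wI m) m a.ba t.xa).symm
    · exact (mul_zero a.bb).symm
    · change colM m (a • t).xb = a.be * colM m t.xa + a.bb * colM m t.xb
      rw [CMod.xb_smul, colM_add, mul_colM (wI m), mul_colM (wI m)]
      rfl
    · change (0 : Matrix J I U) = rh a.ba * (0 : Matrix J I U) + a.na * (0 : Matrix I I U)
      simp
    · change (0 : Matrix J I U) = rh a.bb * (0 : Matrix J I U) + a.nb * (0 : Matrix I I U) +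
        DD * (rh a.be * (0 : Matrix J I U))
      simp

theorem eSec_smul (m : I) (t : EMod (Ureg_rel (wI m))) : eSec m t • eGen m = t := by
  refine CMod.ext ?_ ?_
  · exact mact_colM _ m t.xa
  · change mact (Ureg_rel (wI m)) (colM m t.xb) (eU m) +
      mact (Ureg_rel (wI m)) (0 : Matrix I I U) 0 = _
    rw [mact_zero', mact_colM, add_zero]

instance (m : I) : Module.Projective A (EMod (Ureg_rel (wI m))) :=
  Module.Projective.of_split (eSec m) (LinearMap.toSpanSingleton A _ (eGen m))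
    (LinearMap.ext (eSec_smul m))

/-- The idempotent of the `b`-vertices. -/
def epsB : A := (0, ⟨1, one_mem_FM _⟩, 0, 0, 0)

theorem epsB_tGen (m : I) : epsB • tGen m = tGen m := by
  refine TMod.ext ?_ ?_ ?_
  · exact mact_one (Ureg_rel (wI m)) (eU m)
  · change mact (Ureg_rel (wI m)) (rh 1) 0 + mact (Ureg_rel (wI m)) (0 : Matrix J I U) (eU m) + mact (Ureg_rel (wI m)) DD (mact (Ureg_rel (wI m)) (rh 0) 0) = 0
    rw [mact_zero', mact_zero', mact_zero', mact_zero, zero_add, add_zero]
  · change mact (Ureg_rel (wI m)) (rh 0) 0 + mact (Ureg_rel (wI m)) (0 : Matrix J I U) (eU m) = 0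
    rw [mact_zero', mact_zero, zero_add]

theorem exists_wI {m : ℤ} (h0 : 0 ≤ m) (h4 : m ≤ 4) : ∃ i : I, wI i = m :=
  ⟨⟨m.toNat, by omega⟩, by simp only [wI]; omega⟩

variable {T : FRep} (hT : T.Rel 4) (ht : Triv 0 T) (hf : FiniteDimensional ℂ T.Y)
include ht hf

theorem fpd_TMod : FPD A (TMod hT) := by
  refine koszul (P := fun T => ∀ h : T.Rel 4, FPD A (TMod h)) ⟨?_, ?_⟩ ?_ T hT ht hf hT
  · intro X Y Z f g hX hY hZ hs pX pY _
    exact FPD.cok (TMod.mses hX hY hZ hs) (pX hX) (pY hY)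
  · intro X Y Z f g hX hY hZ hs pX pZ _
    exact FPD.ext (TMod.mses hX hY hZ hs) (pX hX) (pZ hZ)
  · intro m h0 h4 _
    obtain ⟨i, rfl⟩ := exists_wI h0 h4
    exact FPD.of_projective

theorem fpd_EMod : FPD A (EMod hT) := by
  refine koszul (P := fun T => ∀ h : T.Rel 4, FPD A (EMod h)) ⟨?_, ?_⟩ ?_ T hT ht hf hT
  · intro X Y Z f g hX hY hZ hs pX pY _
    exact FPD.cok (CMod.mses (φ := f) (ψ := f) (φ' := g) (ψ' := g) (fun _ => rfl) (fun _ => rfl)
      hs hs) (pX hX) (pY hY)
  · intro X Y Z f g hX hY hZ hs pX pZ _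
    exact FPD.ext (CMod.mses (φ := f) (ψ := f) (φ' := g) (ψ' := g) (fun _ => rfl) (fun _ => rfl)
      hs hs) (pX hX) (pZ hZ)
  · intro m h0 h4 _
    obtain ⟨i, rfl⟩ := exists_wI h0 h4
    exact FPD.of_projective

theorem ev_TMod (M : ModuleCat.{0} A) (hM : ∀ x : M, epsB • x = 0) : EV (TMod hT) M := by
  refine koszul (P := fun T => ∀ h : T.Rel 4, EV (TMod h) M) ⟨?_, ?_⟩ ?_ T hT ht hf hT
  · intro X Y Z f g hX hY hZ hs pX pY _
    exact EV.cok (TMod.mses hX hY hZ hs) (pX hX) (pY hY)
  · intro X Y Z f g hX hY hZ hs pX pZ _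
    exact EV.ext (TMod.mses hX hY hZ hs) (pX hX) (pZ hZ)
  · intro m h0 h4 _
    obtain ⟨i, rfl⟩ := exists_wI h0 h4
    refine EV.of_projective fun φ => LinearMap.ext fun t => ?_
    rw [← tSec_smul i t, map_smul, ← epsB_tGen, map_smul, hM, smul_zero, LinearMap.zero_apply]

end

end Crest.Agent.R178
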