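import Mathlib

/-!
Filtered representations of the generators `u, v, e, f` of `gl₂`, and the tower of explicit
inductions used to resolve a finite-dimensional representation.
-/

set_option autoImplicit false

namespace Crest.Agent.R178

noncomputable section

/-- Structure constants: for `i < k`, `[x i, x k] = cc i k • x k + ee i k • (x 0 - x 1)`.
Generators: `0 = u`, `1 = v`, `2 = e`, `3 = f`. -/
def cc (i k : Fin 4) : ℂ := !![0, 0, 1, -1; 0, 0, -1, 1; 0, 0, 0, 0; 0, 0, 0, 0] i k

def ee (i k : Fin 4) : ℂ := !![0, 0, 0, 0; 0, 0, 0, 0; 0, 0, 0, 1; 0, 0, 0, 0] i k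

theorem cc01 : cc 0 1 = 0 := rfl
theorem cc02 : cc 0 2 = 1 := rfl
theorem cc03 : cc 0 3 = -1 := rfl
theorem cc12 : cc 1 2 = -1 := rfl
theorem cc13 : cc 1 3 = 1 := rfl
theorem cc23 : cc 2 3 = 0 := rfl
theorem ee01 : ee 0 1 = 0 := rfl
theorem ee02 : ee 0 2 = 0 := rfl
theorem ee03 : ee 0 3 = 0 := rfl
theorem ee12 : ee 1 2 = 0 := rfl
theorem ee13 : ee 1 3 = 0 := rfl
theorem ee23 : ee 2 3 = 1 := rfl

structure FRep where
  Y : Type
  [acg : AddCommGroup Y]
  [mod : Module ℂ Y]
  x : Fin 4 → Module.End ℂ Y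
  G : ℤ → Submodule ℂ Y
  mono : Monotone G
  x_mem : ∀ i n y, y ∈ G n → x i y ∈ G (n + 1)

attribute [instance] FRep.acg FRep.mod

namespace FRep

/-- The relations among the generators of index `< j`. -/
def Rel (j : ℕ) (T : FRep) : Prop :=
  ∀ i k : Fin 4, i < k → k.val < j → ∀ t,
    T.x i (T.x k t) = T.x k (T.x i t) + cc i k • T.x k t + ee i k • (T.x 0 t - T.x 1 t)

theorem Rel.mono' {j j' : ℕ} {T : FRep} (h : T.Rel j) (hj : j' ≤ j) : T.Rel j' :=
  fun i k hik hk => h i k hik (lt_of_lt_of_le hk hj)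

theorem mem_of_le (T : FRep) {m n : ℤ} (h : m ≤ n) {y : T.Y} (hy : y ∈ T.G m) : y ∈ T.G n :=
  T.mono h hy

theorem pow_mem (T : FRep) (k : Fin 4) (a : ℕ) (n : ℤ) (y : T.Y) (hy : y ∈ T.G n) :
    (T.x k ^ a) y ∈ T.G (n + a) := by
  induction a with
  | zero => simpa using hy
  | succ a ih =>
    rw [pow_succ', Module.End.mul_apply]
    have := T.x_mem k _ _ ih
    push_cast
    rwa [← add_assoc]

@[ext]
structure Hom (j : ℕ) (X Y : FRep) where
  f : X.Y →ₗ[ℂ] Y.Y
  comm : ∀ i : Fin 4, i.val < j → ∀ t, f (X.x i t) = Y.x i (f t)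
  mem : ∀ n t, t ∈ X.G n → f t ∈ Y.G n

def Hom.id (j : ℕ) (X : FRep) : Hom j X X :=
  ⟨LinearMap.id, fun _ _ _ => rfl, fun _ _ h => h⟩

def Hom.comp {j : ℕ} {X Y Z : FRep} (g : Hom j Y Z) (f : Hom j X Y) : Hom j X Z :=
  ⟨g.f ∘ₗ f.f, fun i hi t => by simp [f.comm i hi, g.comm i hi],
    fun n t h => g.mem _ _ (f.mem _ _ h)⟩

def Hom.zero (j : ℕ) (X Y : FRep) : Hom j X Y :=
  ⟨0, fun _ _ _ => by simp, fun _ _ _ => by simp⟩

def Hom.restr {j j' : ℕ} {X Y : FRep} (f : Hom j X Y) (h : j' ≤ j) : Hom j' X Y :=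
  ⟨f.f, fun i hi => f.comm i (lt_of_lt_of_le hi h), f.mem⟩

/-- Strict short exact sequences. -/
structure SES {j : ℕ} {X Y Z : FRep} (f : Hom j X Y) (g : Hom j Y Z) : Prop where
  inj : Function.Injective f.f
  comp : ∀ t, g.f (f.f t) = 0
  exact : ∀ n t, t ∈ Y.G n → g.f t = 0 → ∃ s ∈ X.G n, f.f s = t
  surj : ∀ n t, t ∈ Z.G n → ∃ s ∈ Y.G n, g.f s = t

/-! ### Induction -/

def indG (T : FRep) (n : ℤ) : Submodule ℂ (ℕ →₀ T.Y) where
  carrier := {p | ∀ a : ℕ, p a ∈ T.G (n - a)}
  add_mem' := fun hp hq a => by simpa using add_mem (hp a) (hq a)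
  zero_mem' := fun a => by simp
  smul_mem' := fun c p hp a => by simpa using Submodule.smul_mem _ c (hp a)

theorem mem_indG {T : FRep} {n : ℤ} {p : ℕ →₀ T.Y} :
    p ∈ T.indG n ↔ ∀ a : ℕ, p a ∈ T.G (n - a) := Iff.rfl

theorem single_mem_indG {T : FRep} {n : ℤ} {a : ℕ} {t : T.Y} (h : t ∈ T.G (n - a)) :
    Finsupp.single a t ∈ T.indG n := by
  intro b
  by_cases hb : a = b
  · subst hb; simpa using h
  · simp [hb]

theorem map_indG {T : FRep} {n : ℤ} {Z : Type} [AddCommGroup Z] [Module ℂ Z]
    (L : (ℕ →₀ T.Y) →ₗ[ℂ] Z) (H : Submodule ℂ Z)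
    (h : ∀ (a : ℕ) (t : T.Y), t ∈ T.G (n - a) → L (Finsupp.single a t) ∈ H)
    (p : ℕ →₀ T.Y) (hp : p ∈ T.indG n) : L p ∈ H := by
  rw [← Finsupp.sum_single p, Finsupp.sum, map_sum]
  exact Submodule.sum_mem _ fun a _ => h a _ (hp a)

def indX (k : Fin 4) (T : FRep) (i : Fin 4) : Module.End ℂ (ℕ →₀ T.Y) :=
  if i = k then Finsupp.lsum ℂ fun a => Finsupp.lsingle (a + 1)
  else Finsupp.lsum ℂ fun a =>
    Finsupp.lsingle a ∘ₗ (T.x i + ((a : ℂ) * cc i k) • 1) +
      (ee i k * a) • Finsupp.lsingle (a - 1) ∘ₗ (T.x 0 - T.x 1 - ((a : ℂ) - 1) • 1)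

theorem indX_self (k : Fin 4) (T : FRep) (a : ℕ) (t : T.Y) :
    indX k T k (Finsupp.single a t) = Finsupp.single (a + 1) t := by
  simp [indX]

theorem indX_ne {k i : Fin 4} (h : i ≠ k) (T : FRep) (a : ℕ) (t : T.Y) :
    indX k T i (Finsupp.single a t) =
      Finsupp.single a (T.x i t) + ((a : ℂ) * cc i k) • Finsupp.single a t +
      (ee i k * a) • (Finsupp.single (a - 1) (T.x 0 t) - Finsupp.single (a - 1) (T.x 1 t)
        - ((a : ℂ) - 1) • Finsupp.single (a - 1) t) := by
  simp [indX, h, Finsupp.single_add, Finsupp.single_sub]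

abbrev Ind (k : Fin 4) (T : FRep) : FRep where
  Y := ℕ →₀ T.Y
  x := indX k T
  G := T.indG
  mono := fun m n h p hp a => T.mem_of_le (by omega) (hp a)
  x_mem := fun i n p hp => by
    refine map_indG _ _ (fun a t ht => ?_) p hp
    by_cases h : i = k
    · subst h
      rw [indX_self]
      refine single_mem_indG ?_
      convert ht using 2
      push_cast; ring
    · rw [indX_ne h]
      have h1 : ∀ l, T.x l t ∈ T.G (n + 1 - a) := fun l => by
        convert T.x_mem l _ _ ht using 2; ring
      have h2 : t ∈ T.G (n + 1 - a) := T.mem_of_le (by omega) ht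
      refine add_mem (add_mem (single_mem_indG (h1 i))
        (Submodule.smul_mem _ _ (single_mem_indG h2))) (Submodule.smul_mem _ _ ?_)
      refine sub_mem (sub_mem ?_ ?_) (Submodule.smul_mem _ _ ?_) <;>
        refine single_mem_indG (T.mem_of_le (m := n + 1 - a) (by omega) ?_)
      exacts [h1 0, h1 1, h2]

theorem ee_ne {i k : Fin 4} (h : ee i k ≠ 0) : i = 2 ∧ k = 3 := by
  revert h
  fin_cases i <;> fin_cases k <;> simp [ee]

theorem ind_hom_ext {T : FRep} {Z : Type} [AddCommGroup Z] [Module ℂ Z]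
    {L M : (ℕ →₀ T.Y) →ₗ[ℂ] Z} (h : ∀ a t, L (Finsupp.single a t) = M (Finsupp.single a t))
    (p : ℕ →₀ T.Y) : L p = M p := by
  have : L = M := Finsupp.lhom_ext h
  rw [this]

/-- Functoriality of `Ind`. -/
def Hom.ind (k : Fin 4) {X Y : FRep} (φ : Hom k.val X Y) : Hom (k.val + 1) (Ind k X) (Ind k Y) where
  f := Finsupp.mapRange.linearMap φ.f
  comm := fun i hi p => by
    refine ind_hom_ext (L := Finsupp.mapRange.linearMap φ.f ∘ₗ indX k X i)
      (M := indX k Y i ∘ₗ Finsupp.mapRange.linearMap φ.f) (fun a t => ?_) p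
    by_cases h : i = k
    · subst h
      simp [indX_self]
    · have hi' : i.val < k.val := by
        have : i.val ≠ k.val := fun h' => h (Fin.ext h')
        omega
      by_cases he : ee i k = 0
      · simp only [LinearMap.comp_apply, indX_ne h, map_add, map_smul, he, zero_mul, zero_smul,
          add_zero, Finsupp.mapRange.linearMap_apply, Finsupp.mapRange_single, φ.comm _ hi']
      · obtain ⟨rfl, rfl⟩ := ee_ne he
        simp only [LinearMap.comp_apply, indX_ne h, map_add, map_smul, map_sub,
          Finsupp.mapRange.linearMap_apply, Finsupp.mapRange_single, φ.comm _ hi',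
          φ.comm 0 (by decide), φ.comm 1 (by decide)]
  mem := fun _ _ hp a => φ.mem _ _ (hp a)

theorem SES.ind (k : Fin 4) {X Y Z : FRep} {f : Hom k.val X Y} {g : Hom k.val Y Z}
    (h : SES f g) : SES (f.ind k) (g.ind k) where
  inj := Finsupp.mapRange_injective _ (map_zero _) h.inj
  comp := fun p => by
    refine Finsupp.ext fun a => ?_
    exact h.comp _
  exact := fun n (p : ℕ →₀ Y.Y) hp h0 => by
    have h1 : ∀ a : ℕ, ∃ s ∈ X.G (n - a), f.f s = p a := fun a =>
      h.exact _ _ (hp a) (DFunLike.congr_fun (F := ℕ →₀ Z.Y) h0 a)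
    choose s hs hs' using h1
    refine ⟨Finsupp.onFinset p.support s (fun a ha => ?_), hs, ?_⟩
    · rw [Finsupp.mem_support_iff, ← hs']
      exact fun h0 => ha (h.inj (by rw [h0, map_zero]))
    · exact Finsupp.ext hs'
  surj := fun n p hp => by
    have := map_indG (T := Z) (n := n) LinearMap.id
      ((Y.indG n).map (Finsupp.mapRange.linearMap g.f))
      (fun a t ht => by
        obtain ⟨s, hs, rfl⟩ := h.surj _ _ ht
        exact ⟨Finsupp.single a s, single_mem_indG hs, by simp⟩) p hp
    exact this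

theorem cc_self (k : Fin 4) : cc k k = 0 := by fin_cases k <;> simp [cc]

/-- The unit `T → Ind k T`. -/
def unit (k : Fin 4) (T : FRep) : Hom k.val T (Ind k T) where
  f := Finsupp.lsingle 0
  comm := fun i hi t => by
    have h : i ≠ k := by rintro rfl; omega
    change Finsupp.single 0 _ = indX k T i (Finsupp.single 0 t)
    simp [indX_ne h]
  mem := fun n t ht => single_mem_indG (by simpa using ht)

theorem single_eq_pow (k : Fin 4) (T : FRep) (a : ℕ) (t : T.Y) :
    Finsupp.single a t = (indX k T k ^ a) (Finsupp.single 0 t) := by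
  induction a with
  | zero => simp
  | succ a ih => rw [pow_succ', Module.End.mul_apply, ← ih, indX_self]

theorem Hom.comm_pow {j : ℕ} {X Y : FRep} (φ : Hom j X Y) (i : Fin 4) (hi : i.val < j) (a : ℕ)
    (t : X.Y) : φ.f ((X.x i ^ a) t) = (Y.x i ^ a) (φ.f t) := by
  induction a with
  | zero => simp
  | succ a ih => rw [pow_succ', pow_succ', Module.End.mul_apply, Module.End.mul_apply,
      φ.comm i hi, ih]

theorem Hom.ind_ext {k : Fin 4} {T Z : FRep} {φ ψ : Hom (k.val + 1) (Ind k T) Z}
    (h : (φ.restr (Nat.le_succ _)).comp (unit k T) = (ψ.restr (Nat.le_succ _)).comp (unit k T)) :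
    φ = ψ := by
  refine Hom.ext (LinearMap.ext fun p => ind_hom_ext (L := φ.f) (M := ψ.f) (fun a t => ?_) p)
  have h0 : φ.f (Finsupp.single 0 t) = ψ.f (Finsupp.single 0 t) :=
    congrArg (fun χ : Hom _ _ _ => χ.f t) h
  rw [single_eq_pow k T a t]
  exact (φ.comm_pow k (Nat.lt_succ_self _) a _).trans
    ((congrArg _ h0).trans (ψ.comm_pow k (Nat.lt_succ_self _) a _).symm)

/-- Commutation of `x i` with the powers of `x k` when the lowering term is absent. -/
theorem Rel.pow_comm {j : ℕ} {T : FRep} (h : T.Rel j) {i k : Fin 4} (hik : i < k)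
    (hk : k.val < j) (he : ee i k = 0) (a : ℕ) (t : T.Y) :
    T.x i ((T.x k ^ a) t) = (T.x k ^ a) (T.x i t) + ((a : ℂ) * cc i k) • (T.x k ^ a) t := by
  induction a generalizing t with
  | zero => simp
  | succ a ih =>
    rw [pow_succ', Module.End.mul_apply, h i k hik hk, ih, he]
    simp only [Module.End.mul_apply, map_add, map_smul]
    push_cast
    module

theorem Rel.pow_comm_ef {T : FRep} (h : T.Rel 4) (a : ℕ) (t : T.Y) :
    T.x 2 ((T.x 3 ^ (a + 1)) t) = (T.x 3 ^ (a + 1)) (T.x 2 t) +
      ((a : ℂ) + 1) • ((T.x 3 ^ a) (T.x 0 t) - (T.x 3 ^ a) (T.x 1 t)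
        - (a : ℂ) • (T.x 3 ^ a) t) := by
  have h23 : ∀ t, T.x 2 (T.x 3 t) = T.x 3 (T.x 2 t) + (T.x 0 t - T.x 1 t) := fun t => by
    simpa [cc, ee] using h 2 3 (by decide) (by decide) t
  induction a with
  | zero => simp [h23]
  | succ a ih =>
    rw [pow_succ' _ (a + 1), Module.End.mul_apply, h23, ih,
      h.pow_comm (i := 0) (k := 3) (by decide) (by decide) (by simp [ee]),
      h.pow_comm (i := 1) (k := 3) (by decide) (by decide) (by simp [ee])]
    simp only [pow_succ' _ a, Module.End.mul_apply, map_add, map_smul, map_sub]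
    simp only [cc]
    push_cast
    simp
    module

/-- The universal property of `Ind`. -/
def Hom.lift {k : Fin 4} {T Z : FRep} (hZ : Z.Rel (k.val + 1)) (φ : Hom k.val T Z) :
    Hom (k.val + 1) (Ind k T) Z where
  f := Finsupp.lsum ℂ fun a => (Z.x k ^ a) ∘ₗ φ.f
  comm := fun i hi p => by
    refine ind_hom_ext
      (L := (Finsupp.lsum ℂ fun a => (Z.x k ^ a) ∘ₗ φ.f) ∘ₗ indX k T i)
      (M := Z.x i ∘ₗ (Finsupp.lsum ℂ fun a => (Z.x k ^ a) ∘ₗ φ.f)) (fun a t => ?_) p
    by_cases h : i = k
    · subst h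
      simp [indX_self, pow_succ']
    · have hi' : i.val < k.val := by
        have : i.val ≠ k.val := fun h' => h (Fin.ext h')
        omega
      by_cases he : ee i k = 0
      · simp only [LinearMap.comp_apply, indX_ne h, map_add, map_smul, he, zero_mul, zero_smul,
          add_zero, Finsupp.lsum_single, φ.comm _ hi']
        rw [hZ.pow_comm hi' (Nat.lt_succ_self _) he]
      · obtain ⟨rfl, rfl⟩ := ee_ne he
        simp only [LinearMap.comp_apply, indX_ne h, map_add, map_smul, map_sub,
          Finsupp.lsum_single, φ.comm _ hi', φ.comm 0 (by decide), φ.comm 1 (by decide)]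
        rcases a with _ | a
        · simp
        · rw [Rel.pow_comm_ef hZ]
          simp [cc, ee]
  mem := fun n p hp => by
    refine map_indG _ _ (fun a t ht => ?_) p hp
    simpa using Z.pow_mem k a _ _ (φ.mem _ _ ht)

theorem Hom.lift_single {k : Fin 4} {T Z : FRep} (hZ : Z.Rel (k.val + 1)) (φ : Hom k.val T Z)
    (a : ℕ) (t : T.Y) : (φ.lift hZ).f (Finsupp.single a t) = (Z.x k ^ a) (φ.f t) :=
  Finsupp.lsum_single ℂ (fun a => (Z.x k ^ a) ∘ₗ φ.f) a t

theorem Rel.ind {k : Fin 4} {T : FRep} (h : T.Rel k.val) : (Ind k T).Rel (k.val + 1) := by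
  intro i l hil hl p
  refine ind_hom_ext (L := indX k T i ∘ₗ indX k T l)
    (M := indX k T l ∘ₗ indX k T i + cc i l • indX k T l + ee i l • (indX k T 0 - indX k T 1))
    (fun a t => ?_) p
  simp only [LinearMap.comp_apply, LinearMap.add_apply, LinearMap.smul_apply, LinearMap.sub_apply]
  by_cases hlk : l = k
  · subst hlk
    have hi : i ≠ l := hil.ne
    by_cases he : ee i l = 0
    · simp only [indX_self, indX_ne hi, he, map_add, map_smul, zero_mul, zero_smul, add_zero]
      push_cast
      module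
    · obtain ⟨rfl, rfl⟩ := ee_ne he
      simp only [indX_self, indX_ne hi, indX_ne (show (0 : Fin 4) ≠ 3 by decide),
        indX_ne (show (1 : Fin 4) ≠ 3 by decide), map_add, map_smul, map_sub]
      rcases a with _ | a
      · simp [cc, ee]
      · simp only [cc03, cc13, cc23, ee03, ee13, ee23, Nat.add_sub_cancel]
        push_cast
        module
  · have hl' : l.val < k.val := by
      have : l.val ≠ k.val := fun h' => hlk (Fin.ext h')
      omega
    have hik : i ≠ k := by rintro rfl; exact absurd (lt_trans hil hl') (lt_irrefl _)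
    have hr := h i l hil hl'
    have hi3 : ee i k = 0 := by
      by_contra he
      obtain ⟨rfl, rfl⟩ := ee_ne he
      have : (2 : Fin 4).val < l.val := hil
      simp at this hl'
      omega
    have hil3 : ee i l = 0 := by
      by_contra he
      obtain ⟨rfl, rfl⟩ := ee_ne he
      have := k.isLt
      simp at hl'
      omega
    by_cases he : ee l k = 0
    · have hc : cc i l * cc l k = 0 := by
        revert hil hl' he
        fin_cases i <;> fin_cases l <;> fin_cases k <;> simp [cc, ee]
      simp only [indX_ne hik, indX_ne hlk, he, hi3, hil3, hr, map_add, map_smul, zero_mul,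
        zero_smul, add_zero, Finsupp.single_add, ← Finsupp.smul_single]
      have : cc i l • ((a : ℂ) * cc l k) • Finsupp.single a t = 0 := by
        rw [smul_smul, mul_left_comm, hc, mul_zero, zero_smul]
      rw [smul_add (cc i l), this]
      module
    · obtain ⟨rfl, rfl⟩ := ee_ne he
      have h01 : ∀ t, T.x 0 (T.x 1 t) = T.x 1 (T.x 0 t) := fun t => by
        simpa [cc, ee] using h 0 1 (by decide) (by decide) t
      simp only [indX_ne hik, indX_ne hlk, hi3, hil3, hr, map_add, map_smul, map_sub, zero_mul,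
        zero_smul, add_zero, Finsupp.single_add, ← Finsupp.smul_single]
      rcases a with _ | a
      · simp [cc, ee]
      · have hi : i = 0 ∨ i = 1 := by
          revert hil
          fin_cases i <;> simp
        rcases hi with rfl | rfl
        · simp only [cc02, cc03, cc23, ee23, Nat.add_sub_cancel, h01]
          push_cast
          module
        · simp only [cc12, cc13, cc23, ee23, Nat.add_sub_cancel, h01]
          push_cast
          module

/-! ### The two-term resolution -/

/-- Twist the action by the weights of `x k` and shift the filtration by one. -/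
abbrev tw (k : Fin 4) (T : FRep) : FRep where
  Y := T.Y
  x := fun i => T.x i + cc i k • 1
  G := fun n => T.G (n - 1)
  mono := fun m n h => T.mono (by omega)
  x_mem := fun i n y hy => by
    refine add_mem ?_ (Submodule.smul_mem _ _ (T.mem_of_le (by omega) hy))
    convert T.x_mem i _ _ hy using 2
    ring

theorem tw_x (k : Fin 4) (T : FRep) (i : Fin 4) (t : T.Y) :
    (tw k T).x i t = T.x i t + cc i k • t := rfl

theorem Rel.tw {k : Fin 4} {T : FRep} (h : T.Rel k.val) : (tw k T).Rel k.val := by
  intro i l hil hl (t : T.Y)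
  have he : ee i l = 0 := by
    by_contra he
    obtain ⟨rfl, rfl⟩ := ee_ne he
    have := k.isLt
    simp at hl
    omega
  have hc : cc i l * cc l k = 0 := by
    revert hil hl
    fin_cases i <;> fin_cases l <;> fin_cases k <;> simp [cc]
  have hr := h i l hil hl t
  change T.x i (T.x l t + cc l k • t) + cc i k • (T.x l t + cc l k • t) =
    T.x l (T.x i t + cc i k • t) + cc l k • (T.x i t + cc i k • t) +
      cc i l • (T.x l t + cc l k • t) + ee i l • _
  have : cc i l • cc l k • t = 0 := by rw [smul_smul, hc, zero_smul]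
  rw [he] at hr
  rw [he, smul_add (cc i l), this]
  simp only [map_add, map_smul, hr]
  module

def resF {k : Fin 4} {T : FRep} (h : T.Rel (k.val + 1)) :
    Hom (k.val + 1) (Ind k (tw k T)) (Ind k T) where
  f := Finsupp.lsum ℂ fun a => Finsupp.lsingle (a + 1) - Finsupp.lsingle a ∘ₗ T.x k
  comm := fun i hi p => by
    refine ind_hom_ext (T := tw k T)
      (L := (Finsupp.lsum ℂ fun a => Finsupp.lsingle (a + 1) - Finsupp.lsingle a ∘ₗ T.x k) ∘ₗ
        indX k (tw k T) i)
      (M := indX k T i ∘ₗ
        (Finsupp.lsum ℂ fun a => Finsupp.lsingle (a + 1) - Finsupp.lsingle a ∘ₗ T.x k))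
      (fun a (t : T.Y) => ?_) p
    by_cases hik : i = k
    · subst hik
      simp only [LinearMap.comp_apply, indX_self (T := tw i T), Finsupp.lsum_single,
        LinearMap.sub_apply, Finsupp.lsingle_apply, map_sub, indX_self (T := T)]
    · have hi' : i < k := by
        have : i.val ≠ k.val := fun h' => hik (Fin.ext h')
        exact Fin.lt_def.2 (by omega)
      have hr := h i k hi' (Nat.lt_succ_self _)
      by_cases he : ee i k = 0
      · simp only [LinearMap.comp_apply, indX_ne (T := tw k T) hik, indX_ne (T := T) hik, he,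
          zero_mul, zero_smul, add_zero, map_add, map_smul, map_sub, Finsupp.lsum_single,
          LinearMap.sub_apply, Finsupp.lsingle_apply, LinearMap.add_apply, LinearMap.smul_apply,
          Module.End.one_apply, hr, Finsupp.single_add, ← Finsupp.smul_single]
        push_cast
        module
      · obtain ⟨rfl, rfl⟩ := ee_ne he
        have h0 := h 0 3 (by decide) (by decide)
        have h1 := h 1 3 (by decide) (by decide)
        simp only [LinearMap.comp_apply, indX_ne (T := tw 3 T) hik, indX_ne (T := T) hik,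
          map_add, map_smul, map_sub, Finsupp.lsum_single,
          LinearMap.sub_apply, Finsupp.lsingle_apply, LinearMap.add_apply, LinearMap.smul_apply,
          Module.End.one_apply, hr, h0, h1, Finsupp.single_add,
          Finsupp.single_sub, ← Finsupp.smul_single, cc03, cc13, cc23, ee03, ee13, ee23]
        rcases a with _ | a
        · simp only [Nat.add_sub_cancel]
          push_cast
          module
        · simp only [Nat.add_sub_cancel]
          push_cast
          module
  mem := fun n p hp => by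
    refine map_indG (T := tw k T) _ _ (fun a (t : T.Y) (ht : t ∈ T.G (n - a - 1)) => ?_) p hp
    simp only [Finsupp.lsum_single, LinearMap.sub_apply, Finsupp.lsingle_apply,
      LinearMap.comp_apply]
    refine sub_mem (single_mem_indG ?_) (single_mem_indG ?_)
    · convert ht using 2
      push_cast
      ring
    · convert T.x_mem k _ _ ht using 2
      ring

theorem resF_single {k : Fin 4} {T : FRep} (h : T.Rel (k.val + 1)) (a : ℕ) (t : T.Y) :
    (resF h).f (Finsupp.single a t) = Finsupp.single (a + 1) t - Finsupp.single a (T.x k t) :=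
  Finsupp.lsum_single ℂ
    (fun a => Finsupp.lsingle (a + 1) - Finsupp.lsingle a ∘ₗ T.x k) a t

def resG {k : Fin 4} {T : FRep} (h : T.Rel (k.val + 1)) : Hom (k.val + 1) (Ind k T) T :=
  Hom.lift h (Hom.id _ T)

/-- The contracting homotopy. -/
def hty (k : Fin 4) (T : FRep) : ℕ → (T.Y →ₗ[ℂ] (ℕ →₀ T.Y))
  | 0 => 0
  | a + 1 => Finsupp.lsingle a + hty k T a ∘ₗ T.x k

theorem hty_mem (k : Fin 4) (T : FRep) (n : ℤ) (a : ℕ) (t : T.Y) (ht : t ∈ T.G (n - a)) :
    hty k T a t ∈ (tw k T).indG n := by
  induction a generalizing t with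
  | zero => simp [hty]
  | succ a ih =>
    refine add_mem (single_mem_indG (T := tw k T) ?_) (ih _ ?_)
    · change t ∈ T.G (n - a - 1)
      convert ht using 2
      push_cast
      ring
    · convert T.x_mem k _ _ ht using 2
      push_cast
      ring

theorem resF_hty {k : Fin 4} {T : FRep} (h : T.Rel (k.val + 1)) (a : ℕ) (t : T.Y) :
    (resF h).f (hty k T a t) =
      (Finsupp.single a t - Finsupp.single 0 ((T.x k ^ a) t) : ℕ →₀ T.Y) := by
  induction a generalizing t with
  | zero => simp [hty]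
  | succ a ih =>
    change (resF h).f (Finsupp.single a t + hty k T a (T.x k t)) = _
    rw [map_add, resF_single, ih, pow_succ, Module.End.mul_apply]
    abel

theorem ses_res {k : Fin 4} {T : FRep} (h : T.Rel (k.val + 1)) : SES (resF h) (resG h) := by
  let r : (ℕ →₀ T.Y) →ₗ[ℂ] (ℕ →₀ T.Y) := Finsupp.lsum ℂ (hty k T)
  have hr : ∀ a t, r (Finsupp.single a t) = hty k T a t := fun a t => Finsupp.lsum_single _ _ _ _
  have hg : ∀ a t, (resG h).f (Finsupp.single a t) = (T.x k ^ a) t := fun a t =>
    Hom.lift_single h _ a t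
  refine ⟨?_, fun p => ?_, fun n (p : ℕ →₀ T.Y) hp h0 => ?_, fun n t ht => ?_⟩
  · refine Function.LeftInverse.injective (g := r) fun p => ?_
    refine ind_hom_ext (L := r ∘ₗ (resF h).f) (M := LinearMap.id) (fun a t => ?_) p
    change r ((resF h).f (Finsupp.single a t)) = Finsupp.single a t
    rw [resF_single, map_sub, hr, hr]
    simp [hty]
  · refine ind_hom_ext (L := (resG h).f ∘ₗ (resF h).f) (M := 0) (fun a t => ?_) p
    change (resG h).f ((resF h).f (Finsupp.single a t)) = 0
    rw [resF_single, map_sub, hg, hg, pow_succ, Module.End.mul_apply, sub_self]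
  · refine ⟨r p, map_indG r _ (fun a t ht => ?_) p hp, ?_⟩
    · rw [hr]
      exact hty_mem k T n a t ht
    · have := ind_hom_ext (L := (resF h).f ∘ₗ r)
        (M := LinearMap.id - Finsupp.lsingle 0 ∘ₗ (resG h).f) (fun a t => by
          change (resF h).f (r (Finsupp.single a t)) =
            Finsupp.single a t - Finsupp.single 0 ((resG h).f (Finsupp.single a t))
          rw [hr, resF_hty, hg]) p
      change (resF h).f (r p) = p - Finsupp.single 0 ((resG h).f p) at this
      rw [this, h0, Finsupp.single_zero, sub_zero]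
  · exact ⟨Finsupp.single 0 t, single_mem_indG (by simpa using ht), by simp [hg]⟩

end FRep

end

end Crest.Agent.R178
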