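import Crest.Agent.R178.Proj

/-!
The syzygy step: `0 → K_T → 𝒯 T → Z_T → 0`, and the structure of `K_T`.
-/

set_option autoImplicit false

namespace Crest.Agent.R178

noncomputable section

open FRep

def mactL {T : FRep} (h : T.Rel 4) {κ ι : Type} [Fintype ι] (m : Matrix κ ι U) :
    (ι → T.Y) →ₗ[ℂ] (κ → T.Y) where
  toFun := mact h m
  map_add' := mact_add' h m
  map_smul' := fun c y => mact_smul' h c m y

theorem mact_sub {T : FRep} (h : T.Rel 4) {κ ι : Type} [Fintype ι] (a b : Matrix κ ι U)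
    (y : ι → T.Y) : mact h (a - b) y = mact h a y - mact h b y := by
  funext j
  simp [mact, Finset.sum_sub_distrib]

/-- The tensor product with the standard representation, trivially filtered. -/
abbrev rhoRep {T : FRep} (h : T.Rel 4) : FRep :=
  triv 0 (Fin 2 → T.Y) fun i => mactL h (rho (gen i))

theorem rhoRep_rel {T : FRep} (h : T.Rel 4) : (rhoRep h).Rel 4 := fun i k hik _ t => by
  change mact h (rho (gen i)) (mact h (rho (gen k)) t) =
    mact h (rho (gen k)) (mact h (rho (gen i)) t) + cc i k • mact h (rho (gen k)) t +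
      ee i k • (mact h (rho (gen 0)) t - mact h (rho (gen 1)) t)
  rw [← mact_mul, ← mact_mul, ← map_mul, gen_rel i k hik]
  simp only [map_add, map_smul, map_sub, map_mul, mact_add, mact_smul, mact_sub]

theorem act_rhoRep {T : FRep} (h : T.Rel 4) (z : U) (w : Fin 2 → T.Y) :
    act (rhoRep_rel h) z w = mact h (rho z) w := by
  induction z using U.induction generalizing w with
  | h0 r => rw [map_smul, map_smul, map_one, map_one, mact_smul, mact_one]; rfl
  | h1 i => rw [act_gen]; rfl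
  | hadd a b ha hb => rw [map_add, map_add, mact_add, LinearMap.add_apply, ha, hb]
  | hmul a b ha hb => rw [map_mul, map_mul, mact_mul, Module.End.mul_apply, hb, ha]

def dHom {T : FRep} (h : T.Rel 4) : Hom 4 (rhoRep h) (rhoRep h) :=
  Hom.ofTriv (triv_triv _ _ _) (triv_triv _ _ _) (mactL h dd) fun i _ t => by
    change mact h dd (mact h (rho (gen i)) t) = mact h (rho (gen i)) (mact h dd t)
    rw [← mact_mul, dd_comm, mact_mul]

def unc {V : Type} (w : I → Fin 2 → V) : J → V := fun j => w j.1 j.2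

theorem mact_rh_unc {T : FRep} (h : T.Rel 4) (b : Matrix I I U) (w : I → Fin 2 → T.Y) :
    mact h (rh b) (unc w) = unc (mact (rhoRep_rel h) b w) := by
  funext j
  change _ = (∑ i, act (rhoRep_rel h) (b j.1 i) (w i)) j.2
  rw [Finset.sum_apply, mact, Fintype.sum_prod_type]
  refine Finset.sum_congr rfl fun i _ => ?_
  rw [act_rhoRep]
  rfl

theorem mact_DD_unc {T : FRep} (h : T.Rel 4) (w : I → Fin 2 → T.Y) :
    mact h DD (unc w) = unc ((dHom h).f ∘ w) := by
  funext j
  change _ = mact h dd (w j.1) j.2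
  rw [mact, Fintype.sum_prod_type, Finset.sum_eq_single j.1 (fun i _ hi => by
    simp [DD_apply, hi.symm]) (by simp)]
  simp [DD_apply, mact, unc]

theorem mem_res_triv {T : FRep} (ht : Triv 0 T) {ι : Type} {w : ι → ℤ} (hw : ∀ i, 0 ≤ w i)
    (y : ι → T.Y) : y ∈ res w T := fun i => (ht _ _).2 (Or.inl (hw i))

theorem wI_nonneg (i : I) : 0 ≤ wI i := by simp [wI]
theorem wA_nonneg (i : J) : 0 ≤ wA i := by simp [wA]
theorem wB_nonneg (i : J) : 0 ≤ wB i := by simp only [wB]; omega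

abbrev ZMod' {T : FRep} (h : T.Rel 4) : Type := CMod (zeroRep_rel 4) h (Hom.zero 4 _ _)
abbrev QMod {T : FRep} (h : T.Rel 4) : Type := CMod h (zeroRep_rel 4) (Hom.zero 4 _ _)
abbrev KMod {T : FRep} (h : T.Rel 4) : Type := CMod (rhoRep_rel h) (rhoRep_rel h) (dHom h)

def kInc {T : FRep} (h : T.Rel 4) (ht : Triv 0 T) : KMod h →ₗ[A] TMod h where
  toFun t := (0, ⟨unc t.xb, mem_res_triv ht wB_nonneg _⟩, ⟨unc t.xa, mem_res_triv ht wA_nonneg _⟩)
  map_add' s t := TMod.ext (add_zero _).symm rfl rfl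
  map_smul' a t := by
    refine TMod.ext ?_ ?_ ?_
    · exact (mact_zero' h a.bb).symm
    · change unc (a • t).xb = mact h (rh a.bb) (unc t.xb) + mact h a.nb 0 +
        mact h DD (mact h (rh a.be) (unc t.xa))
      rw [CMod.xb_smul, mact_zero', add_zero, mact_rh_unc, mact_rh_unc, mact_DD_unc,
        mact_nat (rhoRep_rel h) (rhoRep_rel h), add_comm]
      rfl
    · change unc (a • t).xa = mact h (rh a.ba) (unc t.xa) + mact h a.na 0
      rw [CMod.xa_smul, mact_zero', add_zero, mact_rh_unc]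

def zProj {T : FRep} (h : T.Rel 4) : TMod h →ₗ[A] ZMod' h where
  toFun t := (0, ⟨t.y, t.y_mem⟩)
  map_add' s t := CMod.ext rfl rfl
  map_smul' a t := by
    refine CMod.ext rfl ?_
    change mact h a.bb t.y = mact h a.be 0 + mact h a.bb t.y
    rw [mact_zero', zero_add]

theorem mses_KTZ {T : FRep} (h : T.Rel 4) (ht : Triv 0 T) : MSES (kInc h ht) (zProj h) where
  inj := fun s t hst => CMod.ext
    (funext fun i => funext fun k => congrFun (congrArg TMod.wa hst) (i, k))
    (funext fun i => funext fun k => congrFun (congrArg TMod.wb hst) (i, k))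
  comp := fun _ => rfl
  exact := fun t h0 =>
    ⟨(⟨fun i k => t.wa (i, k), mem_res_triv (triv_triv _ _ _) wI_nonneg _⟩,
      ⟨fun i k => t.wb (i, k), mem_res_triv (triv_triv _ _ _) wI_nonneg _⟩),
      TMod.ext (congrArg CMod.xb h0).symm rfl rfl⟩
  surj := fun t => ⟨(⟨t.xb, t.xb_mem⟩, 0, 0), CMod.ext rfl rfl⟩

theorem ses_id_zero (X : FRep) : SES (Hom.id 4 X) (Hom.zero 4 X zeroRep) :=
  ⟨fun _ _ h => h, fun _ => rfl, fun _ t ht _ => ⟨t, ht, rfl⟩, fun _ _ _ => ⟨0, zero_mem _, rfl⟩⟩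

theorem ses_zero_id (X : FRep) : SES (Hom.zero 4 zeroRep X) (Hom.id 4 X) :=
  ⟨fun _ _ _ => rfl, fun _ => rfl, fun _ _ _ h => ⟨0, zero_mem _, h.symm⟩,
    fun _ t ht => ⟨t, ht, rfl⟩⟩

section cone

variable {V W : FRep} (hV : V.Rel 4) (hW : W.Rel 4) (tV : Triv 0 V) (tW : Triv 0 W)
  (fV : FiniteDimensional ℂ V.Y) (fW : FiniteDimensional ℂ W.Y)
  (d : Hom 4 W W) (i : Hom 4 V W) (p : Hom 4 W V)

/-- The kernel of a morphism, trivially filtered. -/
abbrev kerRep : FRep :=
  triv 0 (LinearMap.ker p.f) fun k => (W.x k).restrict fun t ht => by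
    rw [LinearMap.mem_ker] at ht ⊢
    rw [p.comm k k.isLt, ht, map_zero]

include hW in
theorem kerRep_rel : (kerRep p).Rel 4 := fun a b hab hb t => Subtype.ext (hW a b hab hb t.1)

include tV tW fV fW in
theorem fpd_cone (hpi : ∀ t, p.f (i.f t) = t) (hdi : ∀ t, d.f (i.f t) = 0)
    (hpd : ∀ t, p.f (d.f t) = 0) (hd : ∀ t, d.f t = 0 → ∃ s, i.f s = t)
    (hp : ∀ t, p.f t = 0 → ∃ s, d.f s = t) (hZ : FPD A (ZMod' hV)) : FPD A (CMod hW hW d) := by
  have hC := kerRep_rel hW p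
  have tC : Triv 0 (kerRep p) := triv_triv _ _ _
  let d' : Hom 4 W (kerRep p) := Hom.ofTriv tW tC (d.f.codRestrict _ hpd)
    fun k hk t => Subtype.ext (d.comm k hk t)
  let j : Hom 4 (kerRep p) W := Hom.ofTriv tC tW (LinearMap.ker p.f).subtype fun _ _ _ => rfl
  have hQ : FPD A (QMod hV) :=
    FPD.cok (CMod.mses (hX' := hV) (hY' := hV) (δ' := Hom.id 4 V) (fun _ => rfl) (fun _ => rfl)
      (ses_zero_id V) (ses_id_zero V)) hZ (fpd_EMod hV tV fV)
  have s1 : SES i d' := SES.ofTriv tV tW tC (Function.LeftInverse.injective hpi)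
    (fun t => Subtype.ext (hdi t)) (fun t ht => hd t (congrArg Subtype.val ht))
    (fun t => by
      obtain ⟨s, hs⟩ := hp t.1 t.2
      exact ⟨s, Subtype.ext hs⟩)
  have s2 : SES j p := SES.ofTriv tC tW tV Subtype.val_injective (fun t => t.2)
    (fun t ht => ⟨⟨t, ht⟩, rfl⟩) (fun t => ⟨i.f t, hpi t⟩)
  have h1 : FPD A (CMod hW hC d') :=
    FPD.ext (CMod.mses (δ' := d') (fun t => (s1.comp t).symm) (fun _ => rfl) s1 (ses_zero_id _))
      hQ (fpd_EMod hC tC (inferInstanceAs (FiniteDimensional ℂ (LinearMap.ker p.f))))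
  exact FPD.ext (CMod.mses (δ := d') (δ' := d) (ψ := j) (ψ' := p) (fun _ => rfl) hpd
    (ses_id_zero W) s2) h1 hZ

theorem enz_cone (hpi : ∀ t, p.f (i.f t) = t) (hpd : ∀ t, p.f (d.f t) = 0)
    {M : ModuleCat.{0} A} {k : ℕ} (hZ : ENZ (ZMod' hV) M k) : ENZ (CMod hW hW d) M k :=
  ENZ.retract
    (CMod.map _ _ _ hW hW d (Hom.zero 4 _ _) i (fun _ => (map_zero _).trans (map_zero _).symm))
    (CMod.map hW hW d _ _ _ (Hom.zero 4 _ _) p hpd)
    (fun t => CMod.ext rfl (funext fun k => hpi (t.xb k))) hZ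

end cone

end

end Crest.Agent.R178
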